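import Vale.Agent.P088.R2.H551.E.Cur

/-!
# P088, stage 3: gluing, pointwise payment zone by zone

The zone `k` has the margin `χ_k² M_k` and the cost `co_k`. Since `∑ χ_j² = 1`, the payment
`m + ∑ co_k ≤ ∑ χ_j² M_j` at `z` follows from `m + ∑ co_k ≤ M_j` for the zones `j` with
`χ_j(z) ≠ 0`.
-/

open MeasureTheory Set Filter
open scoped ContDiff Topology

noncomputable section

namespace Vale.Agent.P088.R2.H338.E

open Vale.Agent.P088.R2.H961.GW Vale.Agent.P088.R2.H960.W Vale.Agent.P088.R2.H644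
open Vale.Agent.P088.R2.H551.E

variable {E ι : Type*} [NormedAddCommGroup E] [NormedSpace ℝ E] [Fintype ι]

/-- The convex combination with the weights `χ_j²`. -/
theorem conv_le {α : Type*} (S : Finset α) {χ M : α → ℝ} {c : ℝ} (h1 : ∑ j ∈ S, χ j ^ 2 = 1)
    (h : ∀ j ∈ S, χ j ≠ 0 → c ≤ M j) : c ≤ ∑ j ∈ S, χ j ^ 2 * M j := by
  have e : c = ∑ j ∈ S, χ j ^ 2 * c := by rw [← Finset.sum_mul, h1, one_mul]
  rw [e]
  refine Finset.sum_le_sum fun j hj => ?_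
  by_cases h0 : χ j = 0
  · rw [h0]; simp
  · exact mul_le_mul_of_nonneg_left (h j hj h0) (sq_nonneg _)

/-- The payment with all the pairs separately. -/
theorem pair_le {α : Type*} (S : Finset α) {co : α → ℝ} {m M : ℝ}
    (hm : m ≤ M / 2) (h : ∀ k ∈ S, 2 * S.card * co k ≤ M) (hS : S.Nonempty) :
    m + ∑ k ∈ S, co k ≤ M := by
  have hc : (0 : ℝ) < S.card := by exact_mod_cast hS.card_pos
  have h1 : ∑ k ∈ S, co k ≤ ∑ _k ∈ S, M / (2 * S.card) :=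
    Finset.sum_le_sum fun k hk => by
      rw [le_div_iff₀ (by positivity)]
      linarith [h k hk]
  rw [Finset.sum_const, nsmul_eq_mul] at h1
  have h2 : (S.card : ℝ) * (M / (2 * S.card)) = M / 2 := by field_simp
  linarith

omit [NormedSpace ℝ E] in
/-- The product of a cut-off and a margin has continuous coefficients. -/
theorem ct_sm {U : Set E} {f : E → ℝ} {q : Q8 E} (hf : ContinuousOn f U) (hq : q.Ct U) :
    (Q8.sm f q).Ct U :=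
  ⟨hf.mul hq.κ, hf.mul hq.ζ₁, hf.mul hq.ζ₂, hf.mul hq.ζy, hf.mul hq.w₁, hf.mul hq.w₂,
    hf.mul hq.wb, hf.mul hq.wc⟩

section int

variable {σ τ : Sl E ι} {U : Set E} {θ v₁ v₂ W a b f : E → ℝ}
variable [MeasureSpace E] [FiniteDimensional ℝ E] [BorelSpace E]
  [(volume : Measure E).IsAddHaarMeasure]

/-- **Gluing, payment zone by zone.** -/
theorem glue_zone (ok : σ.Ok U θ) (ot : τ.Ok U θ) (c : Cm σ τ U) (hv₁ : Sm U v₁)
    (hv₂ : Sm U v₂) (h₁ : ∀ z ∈ U, ∀ k, τ.D k v₁ z = 0) (h₂ : ∀ z ∈ U, ∀ i, σ.D i v₂ z = 0)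
    (hW : Sm U W) {α : Type*} (S : Finset α) {χ : α → E → ℝ} (hχ : ∀ k ∈ S, Sm U (χ k))
    (h1 : ∀ z ∈ U, ∑ k ∈ S, χ k z ^ 2 = 1) {m : Q8 E} {M co : α → Q8 E} (cm : m.Ct U)
    (cM : ∀ k ∈ S, ((M k).sm fun z => χ k z ^ 2).Ct U) (cc : ∀ k ∈ S, (co k).Ct U)
    (zone : ∀ k ∈ S, Zone σ τ U θ v₁ v₂ W (χ k) ((M k).sm fun z => χ k z ^ 2) (co k))
    (pay : ∀ z ∈ U, ∀ j ∈ S, χ j z ≠ 0 → ∀ a b : E → ℝ, m.dens σ τ v₁ v₂ W a b z +
      ∑ k ∈ S, (co k).dens σ τ v₁ v₂ W a b z ≤ (M j).dens σ τ v₁ v₂ W a b z)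
    (ha : Te U a) (hb : Te U b) :
    In U θ (m.dens σ τ v₁ v₂ W a b) ≤ TT σ τ U θ v₁ v₂ W a b := by
  refine glue ok ot c hv₁ hv₂ h₁ h₂ hW S hχ h1 cm cM cc zone (fun z hz a b => ?_) ha hb
  have h := conv_le S (χ := fun j => χ j z) (M := fun j => (M j).dens σ τ v₁ v₂ W a b z)
    (h1 z hz) fun j hj h0 => pay z hz j hj h0 a b
  refine h.trans (le_of_eq (Finset.sum_congr rfl fun j _ => ?_))
  rw [Q8.dens_sm]

end int

/-- The pointwise payment for one pair from eight coefficient inequalities, `s ≥ 0` moves the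
costs of `a²`, `b²` to `(a + b)²`, `(a - b)²`. -/
theorem dens_le_of {σ τ : Sl E ι} {v₁ v₂ W a b : E → ℝ} {z : E} {p q : Q8 E} (s : ℝ)
    (hκ : p.κ z ≤ q.κ z) (hζ₁ : p.ζ₁ z ≤ q.ζ₁ z) (hζ₂ : p.ζ₂ z ≤ q.ζ₂ z)
    (hζy : p.ζy z ≤ q.ζy z) (hw₁ : p.w₁ z ≤ q.w₁ z + 2 * s) (hw₂ : p.w₂ z ≤ q.w₂ z + 2 * s)
    (hwb : p.wb z + s ≤ q.wb z) (hwc : p.wc z + s ≤ q.wc z) :
    p.dens σ τ v₁ v₂ W a b z ≤ q.dens σ τ v₁ v₂ W a b z := by
  unfold Q8.dens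
  have k0 := sqd_nonneg σ τ v₁ v₂ W a b z
  have k1 := Q8.nX_nonneg σ W a z
  have k2 := Q8.nX_nonneg τ W b z
  have k3 := Q8.nY_nonneg σ τ W a b z
  have j0 := mul_le_mul_of_nonneg_right hκ k0
  have j1 := mul_le_mul_of_nonneg_right hζ₁ k1
  have j2 := mul_le_mul_of_nonneg_right hζ₂ k2
  have j3 := mul_le_mul_of_nonneg_right hζy k3
  have j4 := mul_le_mul_of_nonneg_right hw₁ (sq_nonneg (a z))
  have j5 := mul_le_mul_of_nonneg_right hw₂ (sq_nonneg (b z))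
  have j6 := mul_le_mul_of_nonneg_right hwb (sq_nonneg (a z + b z))
  have j7 := mul_le_mul_of_nonneg_right hwc (sq_nonneg (a z - b z))
  simp only [add_mul] at j4 j5 j6 j7
  linarith [j0, j1, j2, j3, j4, j5, j6, j7]

end Vale.Agent.P088.R2.H338.E
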