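import Vale.Agent.P088.R2.H338.E.Wu

/-!
# P088, stage 3, zone C, region II: the energy estimate `RowAE`
-/

open MeasureTheory Set
open scoped ContDiff

noncomputable section

namespace Vale.Agent.P088.R2.H338.AE

open Vale.Agent.P088.LR Vale.Agent.P088.HY
open Vale.Agent.P088.R2.H961.GW
open Vale.Agent.P088.R2.H644 Vale.Agent.P088.R2.H644.Ch
open Vale.Agent.P088.R2.H205.C Vale.Agent.P088.R2.H338.EW

variable {n : ℕ}

/-! ### Integral identities -/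

lemma te_int1 {f : VV n → ℝ} (hf : Te univ f) : Integrable f :=
  hf.1.continuous.integrable_of_hasCompactSupport hf.2.1

lemma te_dd {f : VV n → ℝ} (hf : Te univ f) (v : VV n) : Te univ (dd v f) :=
  hf.fd isOpen_univ v

lemma sm_dd {f : VV n → ℝ} (hf : ContDiff ℝ ∞ f) (v : VV n) : ContDiff ℝ ∞ (dd v f) :=
  contDiffOn_univ.1 (Sm.fd isOpen_univ (contDiffOn_univ.2 hf) v)

lemma df {f : VV n → ℝ} (hf : ContDiff ℝ ∞ f) (z : VV n) : DifferentiableAt ℝ f z :=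
  hf.contDiffAt.differentiableAt (by simp)

/-- `∂_v (m W_v f²)`. -/
lemma dd_prod {m W f : VV n → ℝ} (hm : ContDiff ℝ ∞ m) (hW : ContDiff ℝ ∞ W)
    (hf : ContDiff ℝ ∞ f) (v z : VV n) :
    dd v (fun z => m z * dd v W z * f z ^ 2) z = (dd v m z * dd v W z + m z * dd v (dd v W) z) *
      f z ^ 2 + 2 * (m z * dd v W z * f z * dd v f z) := by
  have h1 : HD v m (dd v m z) z := ⟨df hm z, rfl⟩
  have h2 : HD v (dd v W) (dd v (dd v W) z) z := ⟨df (sm_dd hW v) z, rfl⟩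
  have h3 : HD v f (dd v f z) z := ⟨df hf z, rfl⟩
  have h := (h1.mul h2).mul (h3.mul h3)
  have e1 : (fun z => m z * dd v W z * f z ^ 2) = fun z => m z * dd v W z * (f z * f z) :=
    funext fun z => by ring
  rw [e1, h.e]
  ring

lemma te_prod {m W f : VV n → ℝ} (hm : ContDiff ℝ ∞ m) (hW : ContDiff ℝ ∞ W)
    (hf : Te univ f) (v : VV n) : Te univ fun z => m z * dd v W z * f z ^ 2 :=
  (hf.sq isOpen_univ).mul_left isOpen_univ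
    (contDiffOn_univ.2 (hm.mul (sm_dd hW v)))

lemma int_prod {m W f : VV n → ℝ} (hm : ContDiff ℝ ∞ m) (hW : ContDiff ℝ ∞ W)
    (hf : Te univ f) (v : VV n) : ∫ z, dd v (fun z => m z * dd v W z * f z ^ 2) z = 0 := by
  have := haar_VV (n := n)
  exact int_fd isOpen_univ (te_prod hm hW hf v) v

/-! ### Pointwise estimates -/

/-- Cauchy–Schwarz with a parameter. -/
lemma cs8 {ι : Type*} (s : Finset ι) (X : ℝ) (a b : ι → ℝ) :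
    |2 * X * ∑ i ∈ s, a i * b i| ≤ X ^ 2 / 8 * ∑ i ∈ s, a i ^ 2 + 8 * ∑ i ∈ s, b i ^ 2 := by
  rw [abs_le]
  have h : ∀ i ∈ s, 0 ≤ 1 / 8 * (X * a i - 8 * b i) ^ 2 := fun i _ => by positivity
  have h' : ∀ i ∈ s, 0 ≤ 1 / 8 * (X * a i + 8 * b i) ^ 2 := fun i _ => by positivity
  have k := Finset.sum_nonneg h
  have k' := Finset.sum_nonneg h'
  have e1 : ∑ i ∈ s, 1 / 8 * (X * a i - 8 * b i) ^ 2 = X ^ 2 / 8 * ∑ i ∈ s, a i ^ 2 +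
      8 * ∑ i ∈ s, b i ^ 2 - 2 * X * ∑ i ∈ s, a i * b i := by
    simp only [Finset.mul_sum, ← Finset.sum_add_distrib, ← Finset.sum_sub_distrib]
    exact Finset.sum_congr rfl fun i _ => by ring
  have e2 : ∑ i ∈ s, 1 / 8 * (X * a i + 8 * b i) ^ 2 = X ^ 2 / 8 * ∑ i ∈ s, a i ^ 2 +
      8 * ∑ i ∈ s, b i ^ 2 + 2 * X * ∑ i ∈ s, a i * b i := by
    simp only [Finset.mul_sum, ← Finset.sum_add_distrib]
    exact Finset.sum_congr rfl fun i _ => by ring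
  rw [e1] at k
  rw [e2] at k'
  exact ⟨by linarith, by linarith⟩

/-- The algebra of one slot. -/
lemma slot (e : Fin n) (F f χ K K' Cd : ℝ) (w c p h : Fin n → ℝ) (hK : 0 ≤ K)
    (hF : F = ∑ i, w i ^ 2) (hK' : |K'| ≤ Cd * K) (hL : |∑ i, h i| ≤ F / 8)
    (hCF : 64 * Cd ^ 2 ≤ F) :
    5 / 8 * (χ ^ 2 * K * F * f ^ 2) - 8 * (K * f ^ 2 * ∑ i, c i ^ 2) ≤
      χ ^ 2 * K * ∑ i, (f * w i - p i) ^ 2 +
      ∑ i, (((2 * χ * c i * K + χ ^ 2 * K' * de e i) * w i + χ ^ 2 * K * h i) * f ^ 2 +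
        2 * (χ ^ 2 * K * w i * f * p i)) := by
  have hF0 : 0 ≤ F := by
    rw [hF]
    exact Finset.sum_nonneg fun i _ => sq_nonneg _
  have e1 : χ ^ 2 * K * ∑ i, (f * w i - p i) ^ 2 +
      ∑ i, (((2 * χ * c i * K + χ ^ 2 * K' * de e i) * w i + χ ^ 2 * K * h i) * f ^ 2 +
        2 * (χ ^ 2 * K * w i * f * p i)) =
      χ ^ 2 * K * f ^ 2 * ∑ i, w i ^ 2 + χ ^ 2 * K * ∑ i, p i ^ 2 +
      K * f ^ 2 * (2 * χ * ∑ i, w i * c i) + χ ^ 2 * f ^ 2 * (K' * ∑ i, w i * de e i) +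
      χ ^ 2 * K * f ^ 2 * ∑ i, h i := by
    simp only [Finset.mul_sum, ← Finset.sum_add_distrib]
    exact Finset.sum_congr rfl fun i _ => by ring
  have e2 : ∑ i, w i * de e i = w e := sum_de e w
  rw [e1, e2, ← hF]
  have h1 := (abs_le.1 (cs8 Finset.univ χ w c)).1
  rw [← hF] at h1
  have h2 : w e ^ 2 ≤ F := by
    rw [hF]
    exact Finset.single_le_sum (f := fun i => w i ^ 2) (fun i _ => sq_nonneg _)
      (Finset.mem_univ e)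
  have h3 : |K' * w e| ≤ K * (F / 8) := by
    have h4 : (Cd * |w e|) ≤ F / 8 := by
      refine abs_le_of_sq_le_sq' ?_ (by positivity) |>.2
      rw [mul_pow, sq_abs]
      nlinarith [mul_le_mul hCF h2 (sq_nonneg _) hF0]
    rw [abs_mul]
    calc |K'| * |w e| ≤ Cd * K * |w e| := mul_le_mul_of_nonneg_right hK' (abs_nonneg _)
      _ = K * (Cd * |w e|) := by ring
      _ ≤ K * (F / 8) := mul_le_mul_of_nonneg_left h4 hK
  have h5 := (abs_le.1 h3).1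
  have h6 := (abs_le.1 hL).1
  have k0 : 0 ≤ χ ^ 2 * K * ∑ i, p i ^ 2 :=
    mul_nonneg (mul_nonneg (sq_nonneg _) hK) (Finset.sum_nonneg fun i _ => sq_nonneg _)
  have k1 := mul_le_mul_of_nonneg_left h1 (mul_nonneg hK (sq_nonneg f))
  have k2 := mul_le_mul_of_nonneg_left h5 (mul_nonneg (sq_nonneg χ) (sq_nonneg f))
  have k3 := mul_le_mul_of_nonneg_left h6
    (mul_nonneg (mul_nonneg (sq_nonneg χ) hK) (sq_nonneg f))
  nlinarith [k0, k1, k2, k3]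

/-! ### The geometry of region II -/

/-- Constants: `C₂` bounds `Δ_x W` by `C₂ E`. -/
def cc2 (n : ℕ) (Cs : ℝ) : ℝ := 2 + 4 * (1 + Cs) + 4 * Cs + 2 * n * (1 + Cs)

lemma cc2_ge (n : ℕ) {Cs : ℝ} (h : 0 < Cs) : 2 ≤ cc2 n Cs := by
  unfold cc2
  have : (0 : ℝ) ≤ 2 * n * (1 + Cs) := by positivity
  linarith

lemma qe_le (e : Fin n) (z : VV n) : qv e z ^ 2 ≤ qq z := by
  rw [qq_eq]
  exact Finset.single_le_sum (f := fun i => qv i z ^ 2) (fun i _ => sq_nonneg _)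
    (Finset.mem_univ e)

/-- the gradient is at least `3/4 E r`, from both slots. -/
lemma grad_ge {A B q Q E : ℝ} (hE : 0 < E) (hQ : 0 ≤ Q) (hq : q ^ 2 ≤ Q) (hA : 0 ≤ A)
    (hA2 : A ^ 2 ≤ E ^ 2 * Q / 64) (hB : 7 / 8 * E ≤ |B|) :
    9 / 16 * (E ^ 2 * Q) ≤ A ^ 2 + 2 * A * B * q + B ^ 2 * Q := by
  obtain ⟨r, hr, hrQ⟩ : ∃ r : ℝ, 0 ≤ r ∧ r ^ 2 = Q := ⟨√Q, Real.sqrt_nonneg _, Real.sq_sqrt hQ⟩
  subst hrQ
  have h1 : A ≤ E * r / 8 := by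
    refine (abs_le_of_sq_le_sq' ?_ (by positivity)).2
    nlinarith
  have h2 : |q| ≤ r := by
    refine abs_le_of_sq_le_sq ?_ hr
    exact hq
  have h3 : -(A * (|B| * r)) ≤ A * B * q := by
    have : |A * B * q| ≤ A * (|B| * r) := by
      rw [abs_mul, abs_mul, abs_of_nonneg hA, mul_assoc]
      exact mul_le_mul_of_nonneg_left (mul_le_mul_of_nonneg_left h2 (abs_nonneg _)) hA
    exact (abs_le.1 this).1
  have h4 : B ^ 2 = |B| ^ 2 := (sq_abs B).symm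
  have h5 : 7 / 8 * E * r ≤ |B| * r := mul_le_mul_of_nonneg_right hB hr
  have h6 : 3 / 4 * (E * r) ≤ |B| * r - A := by linarith
  have h7 : 0 ≤ 3 / 4 * (E * r) := by positivity
  have h8 : (3 / 4 * (E * r)) ^ 2 ≤ (|B| * r - A) ^ 2 := pow_le_pow_left₀ h7 h6 2
  rw [h4]
  nlinarith

/-- numbers of region II. -/
structure Rg (n : ℕ) (Cs Cd cl c₀ a₁ C₁ : ℝ) : Prop where
  csp : 0 < Cs
  clp : 0 < cl
  a0 : 0 < a₁
  a1 : a₁ ≤ 1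
  a2 : a₁ ≤ cl / 256
  c1 : c₀ ≤ 1 / 32
  c2 : 64 * Cs * c₀ ^ 2 ≤ 1
  cp : 0 < c₀
  C1 : 16 * cc2 n Cs / cl ≤ C₁
  C2 : 4 * Cd ^ 2 ≤ C₁
  C0 : 0 < C₁

/-- `N² ≤ E² Q / 256`. -/
lemma nums0 {Cs Cd cl c₀ a₁ C₁ N K E Q : ℝ} (h : Rg n Cs Cd cl c₀ a₁ C₁)
    (hE : 0 < E) (hK : 0 < K) (hke : N ^ 2 ≤ a₁ * (K * E)) (hcl : cl * K ≤ E * Q) :
    N ^ 2 ≤ E ^ 2 * Q / 256 := by
  have h1 : a₁ * (K * E) ≤ cl / 256 * (K * E) :=
    mul_le_mul_of_nonneg_right h.a2 (mul_pos hK hE).le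
  have h2 : cl * K * E ≤ E * Q * E := mul_le_mul_of_nonneg_right hcl hE.le
  linarith

lemma numsQ {Cs Cd cl c₀ a₁ C₁ Q : ℝ} (h : Rg n Cs Cd cl c₀ a₁ C₁) (hQ4 : Q ≤ 4 * c₀ ^ 2) :
    Q ≤ 1 / 256 ∧ Cs * Q ≤ 1 / 16 := by
  have c0 := h.cp
  have cs := h.csp
  have h0 : c₀ ^ 2 ≤ (1 / 32) ^ 2 := pow_le_pow_left₀ c0.le h.c1 2
  have h1 := mul_le_mul_of_nonneg_left hQ4 cs.le
  have h2 := h.c2
  exact ⟨by linarith, by linarith⟩

/-- the lower bound for the gradient. -/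
lemma nums1 {Cs Cd cl c₀ a₁ C₁ N K E Q Ph Ph1 q B : ℝ} (h : Rg n Cs Cd cl c₀ a₁ C₁)
    (hE : 0 < E) (hN : 0 < N) (hK : 0 < K)
    (hke : N ^ 2 ≤ a₁ * (K * E))
    (hcl : cl * K ≤ E * Q) (hQ : 0 ≤ Q) (hQ4 : Q ≤ 4 * c₀ ^ 2) (hq : q ^ 2 ≤ Q)
    (hPh : 0 ≤ Ph) (hPhQ : Ph ≤ Q) (hPh1 : |Ph1 - 1 / 2| ≤ Cs * Q)
    (hB : B = 2 * E * Ph1 ∨ B = -(2 * E * Ph1)) :
    9 / 16 * (E ^ 2 * Q) ≤ (N + E * Ph) ^ 2 + 2 * (N + E * Ph) * B * q + B ^ 2 * Q := by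
  obtain ⟨hQs, hCQ⟩ := numsQ h hQ4
  have hEQ : 0 ≤ E ^ 2 * Q := by positivity
  have hN2 := nums0 h hE hK hke hcl
  have hA0 : 0 ≤ N + E * Ph := by positivity
  have hA2 : (N + E * Ph) ^ 2 ≤ E ^ 2 * Q / 64 := by
    have h1 : E * Ph ≤ E * Q := mul_le_mul_of_nonneg_left hPhQ hE.le
    have h2 : (E * Ph) ^ 2 ≤ (E * Q) ^ 2 := pow_le_pow_left₀ (by positivity) h1 2
    have h3 : E ^ 2 * Q * Q ≤ E ^ 2 * Q * (1 / 256) := mul_le_mul_of_nonneg_left hQs hEQ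
    have h4 : (N + E * Ph) ^ 2 ≤ 2 * N ^ 2 + 2 * (E * Ph) ^ 2 := by
      linarith [sq_nonneg (N - E * Ph)]
    linarith
  have hB' : 7 / 8 * E ≤ |B| := by
    have h1 : |B| = 2 * E * |Ph1| := by
      rcases hB with hB | hB <;> rw [hB]
      · rw [abs_mul, abs_of_pos (by positivity : (0 : ℝ) < 2 * E)]
      · rw [abs_neg, abs_mul, abs_of_pos (by positivity : (0 : ℝ) < 2 * E)]
    have h2 : 7 / 16 ≤ |Ph1| := by
      have h3 := (abs_le.1 (hPh1.trans hCQ)).1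
      exact le_trans (by linarith) (le_abs_self Ph1)
    rw [h1]
    have h3 := mul_le_mul_of_nonneg_left h2 (by positivity : 0 ≤ 2 * E)
    linarith
  exact grad_ge (A := N + E * Ph) (B := B) hE hQ hq hA0 hA2 hB'

/-- `8 C₂ E ≤ F` and `C₁ ≤ E`, `K ≤ E`. -/
lemma nums2 {Cs Cd cl c₀ a₁ C₁ N K E Q F : ℝ} (h : Rg n Cs Cd cl c₀ a₁ C₁)
    (hE : 0 < E) (hK : 0 < K) (hKN : K ≤ N) (hNE : N ≤ a₁ * E)
    (hk2 : C₁ * N ^ 2 ≤ K ^ 3) (hn0 : C₁ ≤ N)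
    (hcl : cl * K ≤ E * Q) (hF : 9 / 16 * (E ^ 2 * Q) ≤ F) :
    8 * (cc2 n Cs * E) ≤ F ∧ K ≤ E ∧ 64 * Cd ^ 2 ≤ F := by
  have cs := h.csp
  have cl0 := h.clp
  have hKC : C₁ ≤ K := by
    have h1 : C₁ * K ^ 2 ≤ K ^ 3 := le_trans
      (mul_le_mul_of_nonneg_left (pow_le_pow_left₀ hK.le hKN 2) h.C0.le) hk2
    have h2 : K ^ 2 * C₁ ≤ K ^ 2 * K := by linarith
    exact le_of_mul_le_mul_left h2 (by positivity)
  have hEN : N ≤ E := hNE.trans (by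
    have := mul_le_mul_of_nonneg_right h.a1 hE.le
    linarith)
  have hEC : C₁ ≤ E := hn0.trans hEN
  have hC2 := cc2_ge n cs
  have hF2 : 8 * (cc2 n Cs * E) ≤ F := by
    have h1 : 16 * cc2 n Cs / cl ≤ K := h.C1.trans hKC
    rw [div_le_iff₀ cl0] at h1
    have h2 : E * (16 * cc2 n Cs) ≤ E * (K * cl) := mul_le_mul_of_nonneg_left h1 hE.le
    have h3 : E * (cl * K) ≤ E * (E * Q) := mul_le_mul_of_nonneg_left hcl hE.le
    have h4 : 0 ≤ cc2 n Cs * E := by positivity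
    linarith
  refine ⟨hF2, hKN.trans hEN, ?_⟩
  have h1 := h.C2
  have h2 : 2 * E ≤ cc2 n Cs * E := mul_le_mul_of_nonneg_right hC2 hE.le
  linarith

/-- the Laplacian. -/
lemma nums3 {Cs Cd cl c₀ a₁ C₁ K E Q F Ph Ph1 Ph2 q : ℝ} (h : Rg n Cs Cd cl c₀ a₁ C₁)
    (hE : 0 < E) (hK : 0 < K) (hQ : 0 ≤ Q) (hQ4 : Q ≤ 4 * c₀ ^ 2) (hq : q ^ 2 ≤ Q)
    (hPh : 0 ≤ Ph) (hPhQ : Ph ≤ Q) (hPh1 : |Ph1 - 1 / 2| ≤ Cs * Q) (hPh2 : |Ph2| ≤ Cs)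
    (hF2 : 8 * (cc2 n Cs * E) ≤ F) (hKE : K ≤ E) :
    (|K + E * (Ph + 4 * Ph1 * q + 4 * Ph2 * Q + 2 * n * Ph1)| ≤ F / 8) ∧
    (|K + E * (Ph - 4 * Ph1 * q + 4 * Ph2 * Q + 2 * n * Ph1)| ≤ F / 8) := by
  have cs := h.csp
  obtain ⟨hQs, hCQ⟩ := numsQ h hQ4
  have hq1 : |q| ≤ 1 := by
    refine abs_le_of_sq_le_sq ?_ zero_le_one
    linarith
  have hP1 : |Ph1| ≤ 1 + Cs := by
    have h1 := abs_le.1 (hPh1.trans hCQ)
    rw [abs_le]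
    constructor <;> linarith [h1.1, h1.2]
  have hP1q : |4 * Ph1 * q| ≤ 4 * (1 + Cs) := by
    rw [abs_mul, abs_mul, abs_of_pos (by norm_num : (0 : ℝ) < 4)]
    have : |Ph1| * |q| ≤ (1 + Cs) * 1 := mul_le_mul hP1 hq1 (abs_nonneg _) (by positivity)
    linarith
  have hP2 : |4 * Ph2 * Q| ≤ 4 * Cs := by
    rw [abs_mul, abs_mul, abs_of_pos (by norm_num : (0 : ℝ) < 4), abs_of_nonneg hQ]
    have : |Ph2| * Q ≤ Cs * 1 := mul_le_mul hPh2 (by linarith) hQ (by positivity)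
    linarith
  have hPn : |2 * n * Ph1| ≤ 2 * n * (1 + Cs) := by
    rw [abs_mul, abs_of_nonneg (by positivity : (0 : ℝ) ≤ 2 * n)]
    exact mul_le_mul_of_nonneg_left hP1 (by positivity)
  have a1 := abs_le.1 hP1q
  have a2 := abs_le.1 hP2
  have a3 := abs_le.1 hPn
  have gen : ∀ X : ℝ, |X| ≤ cc2 n Cs - 1 → |K + E * X| ≤ F / 8 := by
    intro X hX
    have h2 : |E * X| ≤ E * (cc2 n Cs - 1) := by
      rw [abs_mul, abs_of_pos hE]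
      exact mul_le_mul_of_nonneg_left hX hE.le
    have h3 := abs_le.1 h2
    have h4 : E * (cc2 n Cs - 1) = cc2 n Cs * E - E := by ring
    rw [h4] at h3
    rw [abs_le]
    constructor <;> linarith [h3.1, h3.2]
  refine ⟨gen _ ?_, gen _ ?_⟩
  · rw [abs_le]
    unfold cc2
    constructor <;> linarith [a1.1, a1.2, a2.1, a2.2, a3.1, a3.2]
  · rw [abs_le]
    unfold cc2
    constructor <;> linarith [a1.1, a1.2, a2.1, a2.2, a3.1, a3.2]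

end Vale.Agent.P088.R2.H338.AE
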