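import Vale.Agent.P088.R2.H338.E.AE

/-!
# P088, stage 3, zone C, region II: the energy estimate `RowAE` of `H205.C.Spec`
-/

open MeasureTheory Set
open scoped ContDiff

noncomputable section

namespace Vale.Agent.P088.R2.H338.AE

open Vale.Agent.P088.LR Vale.Agent.P088.HY
open Vale.Agent.P088.R2.H961.GW
open Vale.Agent.P088.R2.H644 Vale.Agent.P088.R2.H644.Ch
open Vale.Agent.P088.R2.H205.C Vale.Agent.P088.R2.H338.EW

variable {n : ℕ}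

/-! ### Test functions -/

lemma te_Uu {W f : VV n → ℝ} (hW : ContDiff ℝ ∞ W) (hf : Te univ f) (i : Fin n) :
    Te univ fun z => Uu W f z i :=
  (hf.mul_right isOpen_univ (contDiffOn_univ.2 (sm_dd hW _))).sub isOpen_univ (te_dd hf _)

lemma te_Uv {W g : VV n → ℝ} (hW : ContDiff ℝ ∞ W) (hg : Te univ g) (i : Fin n) :
    Te univ fun z => Uv W g z i :=
  (hg.mul_right isOpen_univ (contDiffOn_univ.2 (sm_dd hW _))).sub isOpen_univ (te_dd hg _)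

lemma te_zz {W f g : VV n → ℝ} (hW : ContDiff ℝ ∞ W) (hf : Te univ f) (hg : Te univ g) :
    Te univ (zz W f g) :=
  (Te.sum isOpen_univ _ fun i _ => (te_Uu hW hf i).sq isOpen_univ).add isOpen_univ
    (Te.sum isOpen_univ _ fun i _ => (te_Uv hW hg i).sq isOpen_univ)

lemma cd_sum_sq {W : Fin n → VV n → ℝ} (hW : ∀ i, ContDiff ℝ ∞ (W i)) :
    ContDiff ℝ ∞ fun z => ∑ i, W i z ^ 2 := ContDiff.sum fun i _ => (hW i).pow 2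

lemma te_wf {W f g : VV n → ℝ} (hW : ContDiff ℝ ∞ W) (hf : Te univ f) (hg : Te univ g) :
    Te univ (wf W f g) :=
  ((hf.sq isOpen_univ).mul_left isOpen_univ
      (contDiffOn_univ.2 (cd_sum_sq fun i => sm_dd hW (Pi.single i 1, 0)))).add isOpen_univ
    ((hg.sq isOpen_univ).mul_left isOpen_univ
      (contDiffOn_univ.2 (cd_sum_sq fun i => sm_dd hW (0, Pi.single i 1))))

lemma te_fg {f g : VV n → ℝ} (hf : Te univ f) (hg : Te univ g) :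
    Te univ fun z => f z ^ 2 + g z ^ 2 :=
  (hf.sq isOpen_univ).add isOpen_univ (hg.sq isOpen_univ)

lemma cd_dq {χ : VV n → ℝ} (h : ContDiff ℝ ∞ χ) (i : Fin n) : ContDiff ℝ ∞ (dq i χ) :=
  ((sm_dd h (Pi.single i 1, 0)).sub (sm_dd h (0, Pi.single i 1))).div_const 2

lemma cd_dp {χ : VV n → ℝ} (h : ContDiff ℝ ∞ χ) (i : Fin n) : ContDiff ℝ ∞ (dp i χ) :=
  (sm_dd h (Pi.single i 1, 0)).add (sm_dd h (0, Pi.single i 1))

lemma cd_gq {χ : VV n → ℝ} (h : ContDiff ℝ ∞ χ) : ContDiff ℝ ∞ (gq χ) :=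
  cd_sum_sq (cd_dq h)

lemma cd_gp {χ : VV n → ℝ} (h : ContDiff ℝ ∞ χ) : ContDiff ℝ ∞ (gp χ) :=
  cd_sum_sq (cd_dp h)

/-! ### The cut-off -/

lemma dx_le (χ : VV n → ℝ) (z : VV n) : ∑ i, dx i χ z ^ 2 ≤ 2 * (gq χ z + gp χ z) := by
  unfold gq gp
  rw [← Finset.sum_add_distrib, Finset.mul_sum]
  refine Finset.sum_le_sum fun i _ => ?_
  have h : dx i χ z = dp i χ z / 2 + dq i χ z := by unfold dp dq; ring
  rw [h]
  nlinarith [sq_nonneg (dp i χ z / 2 - dq i χ z), sq_nonneg (dp i χ z)]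

lemma dy_le (χ : VV n → ℝ) (z : VV n) : ∑ i, dy i χ z ^ 2 ≤ 2 * (gq χ z + gp χ z) := by
  unfold gq gp
  rw [← Finset.sum_add_distrib, Finset.mul_sum]
  refine Finset.sum_le_sum fun i _ => ?_
  have h : dy i χ z = dp i χ z / 2 - dq i χ z := by unfold dp dq; ring
  rw [h]
  nlinarith [sq_nonneg (dp i χ z / 2 + dq i χ z), sq_nonneg (dp i χ z)]

lemma gqp_nonneg (χ : VV n → ℝ) (z : VV n) : 0 ≤ gq χ z + gp χ z :=
  add_nonneg (Finset.sum_nonneg fun _ _ => sq_nonneg _) (Finset.sum_nonneg fun _ _ => sq_nonneg _)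

lemma dd_off {χ : VV n → ℝ} {z : VV n} (hz : z ∉ tsupport χ) (v : VV n) : dd v χ z = 0 := by
  have h : χ =ᶠ[nhds z] fun _ => 0 := notMem_tsupport_iff_eventuallyEq.1 hz
  rw [dd_congr h, dd_const]

/-- `m = χ² K`. -/
lemma hd_m (e : Fin n) {χ : VV n → ℝ} {φ₂ φ₃ : ℝ → ℝ} (hχ : ContDiff ℝ ∞ χ)
    (d : ∀ s, HasDerivAt φ₂ (φ₃ s) s) (v z : VV n) :
    dd v (fun z => χ z ^ 2 * φ₂ (ht e z)) z = 2 * χ z * dd v χ z * φ₂ (ht e z) +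
      χ z ^ 2 * φ₃ (ht e z) * (v.1 e + v.2 e) := by
  have h3 : HD v χ (dd v χ z) z := ⟨df hχ z, rfl⟩
  have h := (h3.mul h3).mul (HD.comp (d _) (hd_ht v z e))
  have e1 : (fun z => χ z ^ 2 * φ₂ (ht e z)) = fun z => χ z * χ z * φ₂ (ht e z) :=
    funext fun z => by ring
  rw [e1, h.e]
  ring

lemma dx_m (e i : Fin n) {χ : VV n → ℝ} {φ₂ φ₃ : ℝ → ℝ} (hχ : ContDiff ℝ ∞ χ)
    (d : ∀ s, HasDerivAt φ₂ (φ₃ s) s) (z : VV n) :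
    dx i (fun z => χ z ^ 2 * φ₂ (ht e z)) z = 2 * χ z * dx i χ z * φ₂ (ht e z) +
      χ z ^ 2 * φ₃ (ht e z) * de e i := by
  rw [dx_eq, hd_m e hχ d, ← dx_eq]
  simp only [de, Pi.single_apply, Pi.zero_apply, eq_comm (a := e) (b := i), add_zero]

lemma dy_m (e i : Fin n) {χ : VV n → ℝ} {φ₂ φ₃ : ℝ → ℝ} (hχ : ContDiff ℝ ∞ χ)
    (d : ∀ s, HasDerivAt φ₂ (φ₃ s) s) (z : VV n) :
    dy i (fun z => χ z ^ 2 * φ₂ (ht e z)) z = 2 * χ z * dy i χ z * φ₂ (ht e z) +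
      χ z ^ 2 * φ₃ (ht e z) * de e i := by
  rw [dy_eq, hd_m e hχ d, ← dy_eq]
  simp only [de, Pi.single_apply, Pi.zero_apply, eq_comm (a := e) (b := i), zero_add]

/-- The divergence in `x`. -/
def Dx (m W f : VV n → ℝ) (z : VV n) : ℝ := ∑ i, dx i (fun z => m z * dx i W z * f z ^ 2) z

/-- The divergence in `y`. -/
def Dy (m W f : VV n → ℝ) (z : VV n) : ℝ := ∑ i, dy i (fun z => m z * dy i W z * f z ^ 2) z

lemma te_Dx {m W f : VV n → ℝ} (hm : ContDiff ℝ ∞ m) (hW : ContDiff ℝ ∞ W)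
    (hf : Te univ f) : Te univ (Dx m W f) :=
  Te.sum isOpen_univ _ fun i _ => te_dd (te_prod hm hW hf (Pi.single i 1, 0)) _

lemma te_Dy {m W f : VV n → ℝ} (hm : ContDiff ℝ ∞ m) (hW : ContDiff ℝ ∞ W)
    (hf : Te univ f) : Te univ (Dy m W f) :=
  Te.sum isOpen_univ _ fun i _ => te_dd (te_prod hm hW hf (0, Pi.single i 1)) _

lemma int_Dx {m W f : VV n → ℝ} (hm : ContDiff ℝ ∞ m) (hW : ContDiff ℝ ∞ W)
    (hf : Te univ f) : ∫ z, Dx m W f z = 0 := by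
  refine (integral_finsetSum Finset.univ fun i _ =>
    te_int1 (te_dd (te_prod hm hW hf (Pi.single i 1, 0)) (Pi.single i 1, 0))).trans ?_
  exact Finset.sum_eq_zero fun i _ => int_prod hm hW hf _

lemma int_Dy {m W f : VV n → ℝ} (hm : ContDiff ℝ ∞ m) (hW : ContDiff ℝ ∞ W)
    (hf : Te univ f) : ∫ z, Dy m W f z = 0 := by
  refine (integral_finsetSum Finset.univ fun i _ =>
    te_int1 (te_dd (te_prod hm hW hf (0, Pi.single i 1)) (0, Pi.single i 1))).trans ?_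
  exact Finset.sum_eq_zero fun i _ => int_prod hm hW hf _

/-- The `x`-slot, pointwise. -/
lemma slot_x (e : Fin n) {χ W f : VV n → ℝ} {φ₂ φ₃ : ℝ → ℝ} {Cd : ℝ} (hχ : ContDiff ℝ ∞ χ)
    (hW : ContDiff ℝ ∞ W) (hf : ContDiff ℝ ∞ f) (cφ : ContDiff ℝ ∞ φ₂)
    (d : ∀ s, HasDerivAt φ₂ (φ₃ s) s) (z : VV n) (hK : 0 ≤ φ₂ (ht e z))
    (hK' : |φ₃ (ht e z)| ≤ Cd * φ₂ (ht e z))
    (hL : |∑ i, dx i (dx i W) z| ≤ (∑ i, dx i W z ^ 2) / 8)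
    (hCF : 64 * Cd ^ 2 ≤ ∑ i, dx i W z ^ 2) :
    5 / 8 * (χ z ^ 2 * φ₂ (ht e z) * (∑ i, dx i W z ^ 2) * f z ^ 2) -
      8 * (φ₂ (ht e z) * f z ^ 2 * ∑ i, dx i χ z ^ 2) ≤
      χ z ^ 2 * φ₂ (ht e z) * s2 (Uu W f z) + Dx (fun z => χ z ^ 2 * φ₂ (ht e z)) W f z := by
  have hm : ContDiff ℝ ∞ fun z => χ z ^ 2 * φ₂ (ht e z) :=
    (hχ.pow 2).mul (cφ.comp (contDiff_ht e))
  have h := slot e (∑ i, dx i W z ^ 2) (f z) (χ z) (φ₂ (ht e z)) (φ₃ (ht e z)) Cd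
    (fun i => dx i W z) (fun i => dx i χ z) (fun i => dx i f z) (fun i => dx i (dx i W) z)
    hK rfl hK' hL hCF
  refine h.trans (le_of_eq ?_)
  unfold s2 Uu Dx
  congr 1
  refine Finset.sum_congr rfl fun i _ => ?_
  have h1 := dd_prod hm hW hf (Pi.single i 1, 0) z
  have h2 := dx_m e i hχ d z
  rw [dx_eq] at h2
  rw [h2] at h1
  exact h1.symm

/-- The `y`-slot, pointwise. -/
lemma slot_y (e : Fin n) {χ W f : VV n → ℝ} {φ₂ φ₃ : ℝ → ℝ} {Cd : ℝ} (hχ : ContDiff ℝ ∞ χ)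
    (hW : ContDiff ℝ ∞ W) (hf : ContDiff ℝ ∞ f) (cφ : ContDiff ℝ ∞ φ₂)
    (d : ∀ s, HasDerivAt φ₂ (φ₃ s) s) (z : VV n) (hK : 0 ≤ φ₂ (ht e z))
    (hK' : |φ₃ (ht e z)| ≤ Cd * φ₂ (ht e z))
    (hL : |∑ i, dy i (dy i W) z| ≤ (∑ i, dy i W z ^ 2) / 8)
    (hCF : 64 * Cd ^ 2 ≤ ∑ i, dy i W z ^ 2) :
    5 / 8 * (χ z ^ 2 * φ₂ (ht e z) * (∑ i, dy i W z ^ 2) * f z ^ 2) -
      8 * (φ₂ (ht e z) * f z ^ 2 * ∑ i, dy i χ z ^ 2) ≤
      χ z ^ 2 * φ₂ (ht e z) * s2 (Uv W f z) + Dy (fun z => χ z ^ 2 * φ₂ (ht e z)) W f z := by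
  have hm : ContDiff ℝ ∞ fun z => χ z ^ 2 * φ₂ (ht e z) :=
    (hχ.pow 2).mul (cφ.comp (contDiff_ht e))
  have h := slot e (∑ i, dy i W z ^ 2) (f z) (χ z) (φ₂ (ht e z)) (φ₃ (ht e z)) Cd
    (fun i => dy i W z) (fun i => dy i χ z) (fun i => dy i f z) (fun i => dy i (dy i W) z)
    hK rfl hK' hL hCF
  refine h.trans (le_of_eq ?_)
  unfold s2 Uv Dy
  congr 1
  refine Finset.sum_congr rfl fun i _ => ?_
  have h1 := dd_prod hm hW hf (0, Pi.single i 1) z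
  have h2 := dy_m e i hχ d z
  rw [dy_eq] at h2
  rw [h2] at h1
  exact h1.symm

lemma Dx_off {e : Fin n} {χ W f : VV n → ℝ} {φ₂ φ₃ : ℝ → ℝ} (hχ : ContDiff ℝ ∞ χ)
    (hW : ContDiff ℝ ∞ W) (hf : ContDiff ℝ ∞ f) (cφ : ContDiff ℝ ∞ φ₂)
    (d : ∀ s, HasDerivAt φ₂ (φ₃ s) s) {z : VV n} (hz : z ∉ tsupport χ) :
    Dx (fun z => χ z ^ 2 * φ₂ (ht e z)) W f z = 0 := by
  have hm : ContDiff ℝ ∞ fun z => χ z ^ 2 * φ₂ (ht e z) :=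
    (hχ.pow 2).mul (cφ.comp (contDiff_ht e))
  refine Finset.sum_eq_zero fun i _ => ?_
  have h1 := dd_prod hm hW hf (Pi.single i 1, 0) z
  rw [hd_m e hχ d, dd_off hz, image_eq_zero_of_notMem_tsupport hz] at h1
  refine Eq.trans h1 ?_
  ring

lemma Dy_off {e : Fin n} {χ W f : VV n → ℝ} {φ₂ φ₃ : ℝ → ℝ} (hχ : ContDiff ℝ ∞ χ)
    (hW : ContDiff ℝ ∞ W) (hf : ContDiff ℝ ∞ f) (cφ : ContDiff ℝ ∞ φ₂)
    (d : ∀ s, HasDerivAt φ₂ (φ₃ s) s) {z : VV n} (hz : z ∉ tsupport χ) :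
    Dy (fun z => χ z ^ 2 * φ₂ (ht e z)) W f z = 0 := by
  have hm : ContDiff ℝ ∞ fun z => χ z ^ 2 * φ₂ (ht e z) :=
    (hχ.pow 2).mul (cφ.comp (contDiff_ht e))
  refine Finset.sum_eq_zero fun i _ => ?_
  have h1 := dd_prod hm hW hf (0, Pi.single i 1) z
  rw [hd_m e hχ d, dd_off hz, image_eq_zero_of_notMem_tsupport hz] at h1
  refine Eq.trans h1 ?_
  ring

/-- The facts of region II at a point. -/
lemma reg {e : Fin n} {Cs Cd cl c₀ a₁ C₁ σ : ℝ} {Φ Φ₁ Φ₂ Φ₃ Φ₄ φ φ₁ φ₂ φ₃ φ₄ : ℝ → ℝ}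
    {I : Set ℝ} (h : Rg n Cs Cd cl c₀ a₁ C₁) (pf : Pf Cs Φ Φ₁ Φ₂ Φ₃ Φ₄)
    (sp : Sp Cd φ φ₁ φ₂ φ₃ φ₄ I) {z : VV n} (hz : z ∈ Zc e c₀ a₁ C₁ σ φ₁ φ₂ I)
    (hcl : cl * φ₂ (ht e z) ≤ tt e z) :
    (|∑ i, dx i (dx i (Wu e φ Φ)) z| ≤ (∑ i, dx i (Wu e φ Φ) z ^ 2) / 8 ∧
      64 * Cd ^ 2 ≤ ∑ i, dx i (Wu e φ Φ) z ^ 2 ∧
      φ₁ (ht e z) ^ 2 + Ee e 1 z * tt e z ≤ 2 * ∑ i, dx i (Wu e φ Φ) z ^ 2) ∧
    (|∑ i, dy i (dy i (Wu e φ Φ)) z| ≤ (∑ i, dy i (Wu e φ Φ) z ^ 2) / 8 ∧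
      64 * Cd ^ 2 ≤ ∑ i, dy i (Wu e φ Φ) z ^ 2 ∧
      φ₁ (ht e z) ^ 2 + Ee e 1 z * tt e z ≤ 2 * ∑ i, dy i (Wu e φ Φ) z ^ 2) := by
  obtain ⟨⟨hI, hQ4⟩, gc⟩ := hz
  have hE := Ee_pos e 1 z
  have hN := sp.np _ hI
  have hK := sp.kp _ hI
  have hKN := sp.kn _ hI
  have hQ := qq_nonneg z
  have hq := qe_le e z
  have hQ1 : qq z ≤ 1 := (numsQ h hQ4).1.trans (by norm_num)
  have ps := pf.ps _ hQ hQ1
  have b1 := pf.b1 _ hQ hQ1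
  have b2 := (pf.b2 _ hQ hQ1).1
  unfold tt at hcl ⊢
  have n0 := nums0 h hE hK gc.ke hcl
  rw [gx_Wu e sp.d1 pf.d1, gy_Wu e sp.d1 pf.d1, lx_Wu e sp.d1 sp.d2 pf.d1 pf.d2,
    ly_Wu e sp.d1 sp.d2 pf.d1 pf.d2]
  have F1 := nums1 h hE hN hK gc.ke hcl hQ hQ4 hq ps.1 ps.2 b1 (Or.inl rfl)
  have F2 := nums1 h hE hN hK gc.ke hcl hQ hQ4 hq ps.1 ps.2 b1 (Or.inr rfl)
  have G1 := nums2 h hE hK hKN gc.nu gc.k2 gc.n0 hcl F1
  have G2 := nums2 h hE hK hKN gc.nu gc.k2 gc.n0 hcl F2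
  have L1 := nums3 h hE hK hQ hQ4 hq ps.1 ps.2 b1 b2 G1.1 G1.2.1
  have L2 := nums3 h hE hK hQ hQ4 hq ps.1 ps.2 b1 b2 G2.1 G2.2.1
  have hEQ : 0 ≤ Ee e 1 z ^ 2 * qq z := by positivity
  refine ⟨⟨L1.1, G1.2.2, ?_⟩, ⟨L2.2, G2.2.2, ?_⟩⟩
  · linarith
  · linarith

/-- The pointwise inequality. -/
lemma point {e : Fin n} {Cs Cd cl c₀ a₁ C₁ σ : ℝ} {Φ Φ₁ Φ₂ Φ₃ Φ₄ φ φ₁ φ₂ φ₃ φ₄ : ℝ → ℝ}
    {I : Set ℝ} {χ f g : VV n → ℝ} (h : Rg n Cs Cd cl c₀ a₁ C₁)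
    (D : Dat e Cs Cd c₀ a₁ C₁ σ Φ Φ₁ Φ₂ Φ₃ Φ₄ φ φ₁ φ₂ φ₃ φ₄ I χ f g)
    (hcl : ∀ z ∈ tsupport χ, cl * φ₂ (ht e z) ≤ tt e z) (z : VV n) :
    χ z ^ 2 * (φ₂ (ht e z) * (wf (Wu e φ Φ) f g z +
      (φ₁ (ht e z) ^ 2 + Ee e 1 z * tt e z) * (f z ^ 2 + g z ^ 2))) ≤
    8 * (χ z ^ 2 * (φ₂ (ht e z) * zz (Wu e φ Φ) f g z)) +
    (8 * (Dx (fun z => χ z ^ 2 * φ₂ (ht e z)) (Wu e φ Φ) f z +
      Dy (fun z => χ z ^ 2 * φ₂ (ht e z)) (Wu e φ Φ) g z) +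
    128 * (φ₂ (ht e z) * (gq χ z + gp χ z) * (f z ^ 2 + g z ^ 2))) := by
  have sp := D.sp
  have hW : ContDiff ℝ ∞ (Wu e φ Φ : VV n → ℝ) := contDiff_Wu e sp.sm D.pf.sm
  have cφ : ContDiff ℝ ∞ φ₂ := cd_of (cd_of sp.sm sp.d1) sp.d2
  by_cases hz : z ∈ tsupport χ
  · have hzc := D.sχ hz
    have hK := sp.kp _ hzc.1.1
    have kd := (sp.kd _ hzc.1.1).1
    obtain ⟨⟨L1, C1, N1⟩, ⟨L2, C2, N2⟩⟩ := reg h D.pf sp hzc (hcl z hz)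
    have s1 := slot_x e D.cχ hW D.tf.1 cφ sp.d3 z hK.le kd L1 C1
    have s2' := slot_y e D.cχ hW D.tg.1 cφ sp.d3 z hK.le kd L2 C2
    have x1 := dx_le χ z
    have y1 := dy_le χ z
    unfold wf zz
    set F := ∑ i, dx i (Wu e φ Φ) z ^ 2
    set G := ∑ i, dy i (Wu e φ Φ) z ^ 2
    set T := φ₁ (ht e z) ^ 2 + Ee e 1 z * tt e z
    set K := φ₂ (ht e z)
    have m0 : 0 ≤ χ z ^ 2 * K := by positivity
    have p1 := mul_le_mul_of_nonneg_left N1 (mul_nonneg m0 (sq_nonneg (f z)))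
    have p2 := mul_le_mul_of_nonneg_left N2 (mul_nonneg m0 (sq_nonneg (g z)))
    have q1 := mul_le_mul_of_nonneg_left x1 (mul_nonneg hK.le (sq_nonneg (f z)))
    have q2 := mul_le_mul_of_nonneg_left y1 (mul_nonneg hK.le (sq_nonneg (g z)))
    have r1 : 0 ≤ χ z ^ 2 * K * F * f z ^ 2 :=
      mul_nonneg (mul_nonneg m0 (Finset.sum_nonneg fun _ _ => sq_nonneg _)) (sq_nonneg _)
    have r2 : 0 ≤ χ z ^ 2 * K * G * g z ^ 2 :=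
      mul_nonneg (mul_nonneg m0 (Finset.sum_nonneg fun _ _ => sq_nonneg _)) (sq_nonneg _)
    linarith
  · have z0 : χ z = 0 := image_eq_zero_of_notMem_tsupport hz
    have g0 : gq χ z = 0 := by
      refine Finset.sum_eq_zero fun i _ => ?_
      have : dq i χ z = 0 := by
        unfold dq
        rw [dx_eq, dy_eq, dd_off hz, dd_off hz]
        norm_num
      rw [this]
      norm_num
    have g1 : gp χ z = 0 := by
      refine Finset.sum_eq_zero fun i _ => ?_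
      have : dp i χ z = 0 := by
        unfold dp
        rw [dx_eq, dy_eq, dd_off hz, dd_off hz]
        norm_num
      rw [this]
      norm_num
    rw [Dx_off D.cχ hW D.tf.1 cφ sp.d3 hz, Dy_off D.cχ hW D.tg.1 cφ sp.d3 hz, z0, g0, g1]
    norm_num

/-- **Row AE**: the energy estimate of region II. -/
theorem rowAE : RowAE := by
  intro n _ Cs Cd σ cl hCs hCd _ hcl
  have h2 := cc2_ge n hCs
  refine ⟨1 / (32 * (1 + Cs)), min 1 (cl / 256), 16 * cc2 n Cs / cl + 4 * Cd ^ 2, 128,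
    by positivity, lt_min one_pos (by positivity), by positivity, by norm_num, ?_⟩
  intro e Φ Φ₁ Φ₂ Φ₃ Φ₄ φ φ₁ φ₂ φ₃ φ₄ I χ f g D hreg
  have rg : Rg n Cs Cd cl (1 / (32 * (1 + Cs))) (min 1 (cl / 256))
      (16 * cc2 n Cs / cl + 4 * Cd ^ 2) := by
    refine ⟨hCs, hcl, lt_min one_pos (by positivity), min_le_left _ _, min_le_right _ _, ?_, ?_,
      by positivity, ?_, ?_, by positivity⟩
    · rw [div_le_div_iff₀ (by positivity) (by norm_num)]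
      linarith
    · rw [div_pow, one_pow, mul_one_div, div_le_one (by positivity)]
      nlinarith
    · have : 0 ≤ 4 * Cd ^ 2 := by positivity
      linarith
    · have : 0 ≤ 16 * cc2 n Cs / cl := by positivity
      linarith
  have sp := D.sp
  have hW : ContDiff ℝ ∞ (Wu e φ Φ : VV n → ℝ) := contDiff_Wu e sp.sm D.pf.sm
  have cφ1 : ContDiff ℝ ∞ φ₁ := cd_of sp.sm sp.d1
  have cφ : ContDiff ℝ ∞ φ₂ := cd_of cφ1 sp.d2
  have cK : ContDiff ℝ ∞ fun z : VV n => φ₂ (ht e z) := cφ.comp (contDiff_ht e)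
  have cN : ContDiff ℝ ∞ fun z : VV n => φ₁ (ht e z) := cφ1.comp (contDiff_ht e)
  have hm : ContDiff ℝ ∞ fun z => χ z ^ 2 * φ₂ (ht e z) := (D.cχ.pow 2).mul cK
  have cT : ContDiff ℝ ∞ fun z : VV n => φ₁ (ht e z) ^ 2 + Ee e 1 z * tt e z :=
    (cN.pow 2).add ((contDiff_Ee e 1).mul ((contDiff_Ee e 1).mul contDiff_qq))
  have t1 : Te univ fun z => χ z ^ 2 * (φ₂ (ht e z) * (wf (Wu e φ Φ) f g z +
      (φ₁ (ht e z) ^ 2 + Ee e 1 z * tt e z) * (f z ^ 2 + g z ^ 2))) :=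
    (((te_wf hW D.tf D.tg).add isOpen_univ ((te_fg D.tf D.tg).mul_left isOpen_univ
      (contDiffOn_univ.2 cT))).mul_left isOpen_univ (contDiffOn_univ.2 cK)).mul_left isOpen_univ
      (contDiffOn_univ.2 (D.cχ.pow 2))
  have t2 : Te univ fun z => χ z ^ 2 * (φ₂ (ht e z) * zz (Wu e φ Φ) f g z) :=
    ((te_zz hW D.tf D.tg).mul_left isOpen_univ (contDiffOn_univ.2 cK)).mul_left isOpen_univ
      (contDiffOn_univ.2 (D.cχ.pow 2))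
  have t3 : Te univ fun z => φ₂ (ht e z) * (gq χ z + gp χ z) * (f z ^ 2 + g z ^ 2) :=
    (te_fg D.tf D.tg).mul_left isOpen_univ
      (contDiffOn_univ.2 (cK.mul ((cd_gq D.cχ).add (cd_gp D.cχ))))
  have t4 := te_Dx hm hW D.tf
  have t5 := te_Dy hm hW D.tg
  have t45 := t4.add isOpen_univ t5
  have key := integral_mono (te_int1 t1) (((te_int1 t2).const_mul 8).add
    (((te_int1 t45).const_mul 8).add ((te_int1 t3).const_mul 128)))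
    fun z => point rg D hreg z
  refine key.trans (le_of_eq ?_)
  have i1 := integral_add ((te_int1 t2).const_mul 8)
    (((te_int1 t45).const_mul 8).add ((te_int1 t3).const_mul 128))
  have i2 := integral_add ((te_int1 t45).const_mul 8) ((te_int1 t3).const_mul 128)
  have i3 := integral_add (te_int1 t4) (te_int1 t5)
  have i4 := int_Dx hm hW D.tf
  have i5 := int_Dy hm hW D.tg
  refine i1.trans ?_
  refine (congrArg₂ (· + ·) (integral_const_mul _ _) i2).trans ?_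
  have i6 : ∫ z, 8 * (Dx (fun z => χ z ^ 2 * φ₂ (ht e z)) (Wu e φ Φ) f z +
      Dy (fun z => χ z ^ 2 * φ₂ (ht e z)) (Wu e φ Φ) g z) = 0 := by
    rw [integral_const_mul, i3, i4, i5]
    norm_num
  rw [i6, integral_const_mul, zero_add]

end Vale.Agent.P088.R2.H338.AE
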