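import Vale.Agent.P088.R2.H165.Tab
import Vale.Agent.P088.R2.H747.S.Zn

/-!
# P088, stage 3: pair payments on the layer `r` (near zones against zone A)

`pay8`: a multiple of a cost against a margin, with the exchange of letters. The literal costs of
the table (`cI`, `cII`) and of zone A (`coA`) against the margins `MI`, `MII`, `MA`.
-/

open Set

noncomputable section

namespace Vale.Agent.P088.R2.H338.E

open Vale.Agent.P088.R2.H961.GW Vale.Agent.P088.R2.H644 Vale.Agent.P088.R2.H551.E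
open Vale.Agent.P088.R2.H165.Tab Vale.Agent.P088.R2.H747.SW

variable {E ι : Type*} [NormedAddCommGroup E] [NormedSpace ℝ E] [Fintype ι]
variable {σ τ : Sl E ι} {v₁ v₂ W a b : E → ℝ} {z : E}

/-- `|X a - X b|² ≤ 2 |X a|² + 2 |X b|²`. -/
theorem nY_le (σ τ : Sl E ι) (W a b : E → ℝ) (z : E) :
    nY σ τ W a b z ≤ 2 * nX σ W a z + 2 * nX τ W b z := by
  unfold nY nX
  rw [Finset.mul_sum, Finset.mul_sum, ← Finset.sum_add_distrib]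
  refine Finset.sum_le_sum fun i _ => ?_
  nlinarith [sq_nonneg (Ch.XX σ W a z i + Ch.XX τ W b z i)]

/-- The general pair: `q` times the cost `p` against the margin `M`; `t` moves `|X a - X b|²` to
`|X a|²`, `|X b|²`, `β`, `γ` move `(a + b)²`, `(a - b)²` to `a²`, `b²`, and `s` moves `a²`, `b²` to
`(a + b)²`, `(a - b)²`. -/
theorem pay8 {p M : Q8 E} (q t β γ s : ℝ) (ht : 0 ≤ t) (hβ : 0 ≤ β) (hγ : 0 ≤ γ)
    (hκ : q * p.κ z ≤ M.κ z) (hy : q * p.ζy z ≤ M.ζy z + t)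
    (h1 : q * p.ζ₁ z + 2 * t ≤ M.ζ₁ z) (h2 : q * p.ζ₂ z + 2 * t ≤ M.ζ₂ z)
    (hwb : q * p.wb z + s ≤ M.wb z + β) (hwc : q * p.wc z + s ≤ M.wc z + γ)
    (hw₁ : q * p.w₁ z + 2 * β + 2 * γ ≤ M.w₁ z + 2 * s)
    (hw₂ : q * p.w₂ z + 2 * β + 2 * γ ≤ M.w₂ z + 2 * s) :
    q * p.dens σ τ v₁ v₂ W a b z ≤ M.dens σ τ v₁ v₂ W a b z := by
  unfold Q8.dens
  have k0 := sqd_nonneg σ τ v₁ v₂ W a b z
  have k1 := Q8.nX_nonneg σ W a z
  have k2 := Q8.nX_nonneg τ W b z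
  have k3 := Q8.nY_nonneg σ τ W a b z
  have k4 := mul_le_mul_of_nonneg_left (nY_le σ τ W a b z) ht
  have j0 := mul_le_mul_of_nonneg_right hκ k0
  have j1 := mul_le_mul_of_nonneg_right h1 k1
  have j2 := mul_le_mul_of_nonneg_right h2 k2
  have j3 := mul_le_mul_of_nonneg_right hy k3
  have j4 := mul_le_mul_of_nonneg_right hw₁ (sq_nonneg (a z))
  have j5 := mul_le_mul_of_nonneg_right hw₂ (sq_nonneg (b z))
  have j6 := mul_le_mul_of_nonneg_right hwb (sq_nonneg (a z + b z))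
  have j7 := mul_le_mul_of_nonneg_right hwc (sq_nonneg (a z - b z))
  have b1 : 0 ≤ β * (a z - b z) ^ 2 := mul_nonneg hβ (sq_nonneg _)
  have b2 : 0 ≤ γ * (a z + b z) ^ 2 := mul_nonneg hγ (sq_nonneg _)
  simp only [add_mul] at j1 j2 j3 j4 j5 j6 j7
  linarith

/-- Nonnegative letters. -/
structure Nn (M : Q8 E) (z : E) : Prop where
  κ : 0 ≤ M.κ z
  ζ₁ : 0 ≤ M.ζ₁ z
  ζ₂ : 0 ≤ M.ζ₂ z
  ζy : 0 ≤ M.ζy z
  w₁ : 0 ≤ M.w₁ z
  w₂ : 0 ≤ M.w₂ z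
  wb : 0 ≤ M.wb z
  wc : 0 ≤ M.wc z

/-! ## The cost of zone A -/

/-- The bounds of a cut-off at a point: `|D_i χ|²` and `Γ(χ, χ)` in both slots. -/
structure Cb (σ τ : Sl E ι) (χ : E → ℝ) (B : ℝ) (z : E) : Prop where
  d₁ : ∑ i, σ.D i χ z ^ 2 ≤ B
  d₂ : ∑ i, τ.D i χ z ^ 2 ≤ B
  g₁ : σ.Γ χ χ z ≤ 2 * B
  g₂ : τ.Γ χ χ z ≤ 2 * B

omit [NormedAddCommGroup E] [NormedSpace ℝ E] in
theorem rh_le {m : E → ℝ} (hm : 0 ≤ m z) : rh m z ≤ 1 := by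
  unfold rh
  rw [div_le_one (by positivity)]
  linarith

/-- **`coA` against any margin** with `ζ ≥ Z`, `w_j ≥ Y F_j`, and `wb, wc ≥ s` or `w_j` in addition
`≥ 2 s`: the case of region I and of zone II. -/
theorem coA_pay {m χ : E → ℝ} {η B q Z Y s F₁ F₂ : ℝ} {M : Q8 E} (hn : Nn M z) (hη : 0 < η)
    (hq : 0 ≤ q) (hm : 0 ≤ m z) (hB : 0 ≤ B) (cb : Cb σ τ χ B z)
    (hF₁ : ∑ i, σ.D i W z ^ 2 ≤ 2 * F₁) (hF₂ : ∑ i, τ.D i W z ^ 2 ≤ 2 * F₂)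
    (hZ₁ : Z ≤ M.ζ₁ z) (hZ₂ : Z ≤ M.ζ₂ z) (s1 s2 : ℝ)
    (hwb : s1 ≤ M.wb z) (hwc : s1 ≤ M.wc z)
    (hw₁ : Y * F₁ + 2 * s2 ≤ M.w₁ z) (hw₂ : Y * F₂ + 2 * s2 ≤ M.w₂ z) (hs : s = s1 + s2)
    (n1 : q * (32 * η * B) ≤ Z) (n2 : q * (288 * η * B) ≤ Y) (n3 : q * (3 / η * (m z * B)) ≤ s) :
    q * (coA σ τ W m χ η).dens σ τ v₁ v₂ W a b z ≤ M.dens σ τ v₁ v₂ W a b z := by
  have r0 : 0 ≤ rh m z := rh_nonneg hm
  have r1 : rh m z ≤ 1 := rh_le hm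
  have sx : 0 ≤ ∑ i, σ.D i χ z ^ 2 := Finset.sum_nonneg fun _ _ => sq_nonneg _
  have sy : 0 ≤ ∑ i, τ.D i χ z ^ 2 := Finset.sum_nonneg fun _ _ => sq_nonneg _
  have wx : 0 ≤ ∑ i, σ.D i W z ^ 2 := Finset.sum_nonneg fun _ _ => sq_nonneg _
  have wy : 0 ≤ ∑ i, τ.D i W z ^ 2 := Finset.sum_nonneg fun _ _ => sq_nonneg _
  have a1 : rh m z * ∑ i, σ.D i χ z ^ 2 ≤ B := by
    have := mul_le_mul r1 cb.d₁ sx zero_le_one
    linarith
  have a2 : rh m z * ∑ i, τ.D i χ z ^ 2 ≤ B := by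
    have := mul_le_mul r1 cb.d₂ sy zero_le_one
    linarith
  have e1 := mul_le_mul_of_nonneg_left a1 (by positivity : 0 ≤ q * (32 * η))
  have e2 := mul_le_mul_of_nonneg_left a2 (by positivity : 0 ≤ q * (32 * η))
  have f1 := mul_le_mul a1 hF₁ wx hB
  have f2 := mul_le_mul a2 hF₂ wy hB
  have f1' := mul_le_mul_of_nonneg_left f1 (by positivity : 0 ≤ q * (144 * η))
  have f2' := mul_le_mul_of_nonneg_left f2 (by positivity : 0 ≤ q * (144 * η))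
  have F1 : 0 ≤ F₁ := by linarith
  have F2 : 0 ≤ F₂ := by linarith
  have y1 := mul_le_mul_of_nonneg_right n2 F1
  have y2 := mul_le_mul_of_nonneg_right n2 F2
  have g1 := mul_le_mul_of_nonneg_left cb.g₁ (by positivity : 0 ≤ q * (3 / η * m z))
  have g2 := mul_le_mul_of_nonneg_left cb.g₂ (by positivity : 0 ≤ q * (3 / η * m z))
  refine pay8 q 0 0 0 s1 le_rfl le_rfl le_rfl ?_ ?_ ?_ ?_ ?_ ?_ ?_ ?_
  · simp only [coA, mul_zero]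
    exact hn.κ
  · simp only [coA, mul_zero, add_zero]
    exact hn.ζy
  · simp only [coA, mul_zero, add_zero]
    linarith
  · simp only [coA, mul_zero, add_zero]
    linarith
  · simp only [coA, mul_zero, zero_add, add_zero]
    exact hwb
  · simp only [coA, mul_zero, zero_add, add_zero]
    exact hwc
  · simp only [coA, mul_zero, add_zero]
    linarith
  · simp only [coA, mul_zero, add_zero]
    linarith

/-- `coA` against region I. -/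
theorem coA_MI {m χ : E → ℝ} {η B q c : ℝ} {ν : Nu E} (hη : 0 < η) (hq : 0 ≤ q) (hc : 0 ≤ c)
    (hm : 0 ≤ m z) (hB : 0 ≤ B) (hE : 0 ≤ ν.En z) (cb : Cb σ τ χ B z)
    (hF₁ : ∑ i, σ.D i W z ^ 2 ≤ 2 * ν.F₁ z) (hF₂ : ∑ i, τ.D i W z ^ 2 ≤ 2 * ν.F₂ z)
    (n1 : q * (288 * η * B) ≤ c) (n2 : q * (3 / η * (m z * B)) ≤ c * ν.En z ^ 2)
    (n3 : q * (3 / η * (m z * B)) ≤ c * ν.wI z) :
    q * (coA σ τ W m χ η).dens σ τ v₁ v₂ W a b z ≤ (MI ν c).dens σ τ v₁ v₂ W a b z := by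
  have wx : 0 ≤ ∑ i, σ.D i W z ^ 2 := Finset.sum_nonneg fun _ _ => sq_nonneg _
  have wy : 0 ≤ ∑ i, τ.D i W z ^ 2 := Finset.sum_nonneg fun _ _ => sq_nonneg _
  have s0 : 0 ≤ q * (3 / η * (m z * B)) := by positivity
  have F1 : 0 ≤ ν.F₁ z := by linarith
  have F2 : 0 ≤ ν.F₂ z := by linarith
  refine coA_pay (Z := c) (Y := c) (s := q * (3 / η * (m z * B))) (F₁ := ν.F₁ z) (F₂ := ν.F₂ z)
    (M := MI ν c) ?_ hη hq hm hB cb hF₁ hF₂ le_rfl le_rfl (q * (3 / η * (m z * B))) 0 n2 n3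
    ?_ ?_ (add_zero _).symm ?_ n1 le_rfl
  · exact ⟨hc, hc, hc, mul_nonneg hc hE, mul_nonneg hc F1, mul_nonneg hc F2,
      s0.trans n2, s0.trans n3⟩
  · simp only [MI, mul_zero, add_zero]
    exact le_rfl
  · simp only [MI, mul_zero, add_zero]
    exact le_rfl
  · have : 0 ≤ q * (η * B) := by positivity
    linarith

/-- `coA` against zone II. -/
theorem coA_MII {m χ : E → ℝ} {η B q : ℝ} {ν : Nu E} (hη : 0 < η) (hq : 0 ≤ q)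
    (hm : 0 ≤ m z) (hB : 0 ≤ B) (hr : 0 ≤ ν.r2 z) (hk : 0 ≤ ν.k z)
    (cb : Cb σ τ χ B z)
    (hF₁ : ∑ i, σ.D i W z ^ 2 ≤ 2 * ν.F₁ z) (hF₂ : ∑ i, τ.D i W z ^ 2 ≤ 2 * ν.F₂ z)
    (n1 : q * (288 * η * B) ≤ 1 / 8 * ν.k z)
    (n2 : q * (3 / η * (m z * B)) ≤ 1 / 16 * (ν.k z * ν.F₁ z))
    (n3 : q * (3 / η * (m z * B)) ≤ 1 / 16 * (ν.k z * ν.F₂ z)) :
    q * (coA σ τ W m χ η).dens σ τ v₁ v₂ W a b z ≤ (MII ν).dens σ τ v₁ v₂ W a b z := by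
  have wx : 0 ≤ ∑ i, σ.D i W z ^ 2 := Finset.sum_nonneg fun _ _ => sq_nonneg _
  have wy : 0 ≤ ∑ i, τ.D i W z ^ 2 := Finset.sum_nonneg fun _ _ => sq_nonneg _
  have F1 : 0 ≤ ν.F₁ z := by linarith
  have F2 : 0 ≤ ν.F₂ z := by linarith
  have s0 : 0 ≤ q * (3 / η * (m z * B)) := by positivity
  refine coA_pay (Z := 1 / 2 * ν.k z) (Y := 1 / 8 * ν.k z) (s := q * (3 / η * (m z * B)))
    (F₁ := ν.F₁ z) (F₂ := ν.F₂ z)
    (M := MII ν) ?_ hη hq hm hB cb hF₁ hF₂ le_rfl le_rfl 0 (q * (3 / η * (m z * B)))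
    (sq_nonneg _) le_rfl ?_ ?_ (zero_add _).symm ?_ n1 le_rfl
  · exact ⟨by simp only [MII]; norm_num, by simp only [MII]; positivity,
      by simp only [MII]; positivity, by simp only [MII]; positivity,
      by simp only [MII]; positivity, by simp only [MII]; positivity, sq_nonneg _, le_rfl⟩
  · simp only [MII]
    linarith
  · simp only [MII]
    linarith
  · have : 0 ≤ q * (η * B) := by positivity
    linarith

/-! ## The cost of region I -/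

/-- `cI` against any margin with large `w₁`, `w₂`. -/
theorem cI_pay {C q B : ℝ} {ν : Nu E} {Zq Zp : E → ℝ} {M : Q8 E} (hn : Nn M z) (hq : 0 ≤ q)
    (hC : 0 ≤ C) (hE : 0 ≤ ν.En z) (hZq : Zq z ≤ B)
    (hZp : ν.En z * Zp z + Zq z ≤ ν.En z * B) (hB : 0 ≤ B)
    (h1 : 4 * (q * (C * (ν.En z * B))) ≤ M.w₁ z) (h2 : 4 * (q * (C * (ν.En z * B))) ≤ M.w₂ z) :
    q * (cI ν C Zq Zp).dens σ τ v₁ v₂ W a b z ≤ M.dens σ τ v₁ v₂ W a b z := by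
  have k1 : q * (C * (ν.En z * Zq z)) ≤ q * (C * (ν.En z * B)) := by gcongr
  have k2 : q * (C * (ν.En z * Zp z + Zq z)) ≤ q * (C * (ν.En z * B)) := by gcongr
  have k0 : 0 ≤ q * (C * (ν.En z * B)) := by positivity
  refine pay8 q 0 (q * (C * (ν.En z * B))) (q * (C * (ν.En z * B))) 0 le_rfl k0 k0
    ?_ ?_ ?_ ?_ ?_ ?_ ?_ ?_
  · simp only [cI, mul_zero]
    exact hn.κ
  · simp only [cI, mul_zero, add_zero]
    exact hn.ζy
  · simp only [cI, mul_zero, add_zero]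
    exact hn.ζ₁
  · simp only [cI, mul_zero, add_zero]
    exact hn.ζ₂
  · simp only [cI, add_zero]
    linarith [hn.wb]
  · simp only [cI, add_zero]
    linarith [hn.wc]
  · simp only [cI, mul_zero, add_zero]
    linarith
  · simp only [cI, mul_zero, add_zero]
    linarith

/-- `cI` against the letters `wb`, `wc` (region I itself, the core). -/
theorem cI_pay' {C q B : ℝ} {ν : Nu E} {Zq Zp : E → ℝ} {M : Q8 E} (hn : Nn M z) (hq : 0 ≤ q)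
    (hC : 0 ≤ C) (hE : 0 ≤ ν.En z) (hZq : Zq z ≤ B)
    (hZp : ν.En z * Zp z + Zq z ≤ ν.En z * B)
    (h1 : q * (C * (ν.En z * B)) ≤ M.wb z) (h2 : q * (C * (ν.En z * B)) ≤ M.wc z) :
    q * (cI ν C Zq Zp).dens σ τ v₁ v₂ W a b z ≤ M.dens σ τ v₁ v₂ W a b z := by
  have k1 : q * (C * (ν.En z * Zq z)) ≤ q * (C * (ν.En z * B)) := by gcongr
  have k2 : q * (C * (ν.En z * Zp z + Zq z)) ≤ q * (C * (ν.En z * B)) := by gcongr
  refine pay8 q 0 0 0 0 le_rfl le_rfl le_rfl ?_ ?_ ?_ ?_ ?_ ?_ ?_ ?_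
  · simp only [cI, mul_zero]
    exact hn.κ
  · simp only [cI, mul_zero, add_zero]
    exact hn.ζy
  · simp only [cI, mul_zero, add_zero]
    exact hn.ζ₁
  · simp only [cI, mul_zero, add_zero]
    exact hn.ζ₂
  · simp only [cI, add_zero]
    linarith
  · simp only [cI, add_zero]
    linarith
  · simp only [cI, mul_zero, add_zero]
    exact hn.w₁
  · simp only [cI, mul_zero, add_zero]
    exact hn.w₂

/-! ## The cost of zone II (and of the core) -/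

theorem cII_eq {C q : ℝ} {ν : Nu E} {Z : E → ℝ} :
    q * (cII ν C Z).dens σ τ v₁ v₂ W a b z = q * (C * Z z) * (uf ν).dens σ τ v₁ v₂ W a b z := by
  unfold cII
  rw [Q8.dens_sm]
  ring

/-- `e uf ≤ M` against margins with letters `ζ`, `w` (zones A, T). -/
theorem uf_pay {e : ℝ} {ν : Nu E} {M : Q8 E} (hn : Nn M z) (he : 0 ≤ e) (hr : 0 ≤ ν.r2 z)
    (h1 : e + 2 * (e * (ν.r2 z)⁻¹) ≤ M.ζ₁ z) (h2 : e + 2 * (e * (ν.r2 z)⁻¹) ≤ M.ζ₂ z)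
    (w1 : e * ν.F₁ z + 2 * (e * ν.En z ^ 2) ≤ M.w₁ z)
    (w2 : e * ν.F₂ z + 2 * (e * ν.En z ^ 2) ≤ M.w₂ z) :
    e * (uf ν).dens σ τ v₁ v₂ W a b z ≤ M.dens σ τ v₁ v₂ W a b z := by
  have k1 : 0 ≤ e * (ν.r2 z)⁻¹ := by positivity
  have k2 : 0 ≤ e * ν.En z ^ 2 := by positivity
  refine pay8 e (e * (ν.r2 z)⁻¹) (e * ν.En z ^ 2) 0 0 k1 k2 le_rfl ?_ ?_ ?_ ?_ ?_ ?_ ?_ ?_
  · simp only [uf, mul_zero]
    exact hn.κ
  · simp only [uf]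
    linarith [hn.ζy]
  · simp only [uf, mul_one]
    exact h1
  · simp only [uf, mul_one]
    exact h2
  · simp only [uf, add_zero]
    linarith [hn.wb]
  · simp only [uf, mul_zero, add_zero]
    exact hn.wc
  · simp only [uf, mul_zero, add_zero]
    exact w1
  · simp only [uf, mul_zero, add_zero]
    exact w2

/-- `e uf` against region I. -/
theorem uf_MI {c e : ℝ} {ν : Nu E} (hc : 0 ≤ c) (hE : 0 ≤ ν.En z) (hF₁ : 0 ≤ ν.F₁ z)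
    (hF₂ : 0 ≤ ν.F₂ z) (hm : 0 ≤ ν.m z) (h1 : e ≤ c) (h2 : e * (ν.r2 z)⁻¹ ≤ c * ν.En z) :
    e * (uf ν).dens σ τ v₁ v₂ W a b z ≤ (MI ν c).dens σ τ v₁ v₂ W a b z := by
  refine pay8 e 0 0 0 0 le_rfl le_rfl le_rfl ?_ ?_ ?_ ?_ ?_ ?_ ?_ ?_
  · simp only [uf, mul_zero, MI]
    exact hc
  · simp only [uf, MI, add_zero]
    exact h2
  · simp only [uf, mul_one, MI, mul_zero, add_zero]
    exact h1
  · simp only [uf, mul_one, MI, mul_zero, add_zero]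
    exact h1
  · simp only [uf, add_zero, MI]
    exact mul_le_mul_of_nonneg_right h1 (sq_nonneg _)
  · simp only [uf, mul_zero, add_zero, MI, Nu.wI]
    positivity
  · simp only [uf, mul_zero, add_zero, MI]
    exact mul_le_mul_of_nonneg_right h1 hF₁
  · simp only [uf, mul_zero, add_zero, MI]
    exact mul_le_mul_of_nonneg_right h1 hF₂

/-- `e uf` against zone II. -/
theorem uf_MII {e : ℝ} {ν : Nu E} (hF₁ : 0 ≤ ν.F₁ z) (hF₂ : 0 ≤ ν.F₂ z) (hr : 0 ≤ ν.r2 z)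
    (hk : 0 ≤ ν.k z) (h1 : e ≤ 1 / 4) (h2 : e ≤ 1 / 4 * ν.k z) :
    e * (uf ν).dens σ τ v₁ v₂ W a b z ≤ (MII ν).dens σ τ v₁ v₂ W a b z := by
  have hi : 0 ≤ (ν.r2 z)⁻¹ := by positivity
  refine pay8 e 0 0 0 0 le_rfl le_rfl le_rfl ?_ ?_ ?_ ?_ ?_ ?_ ?_ ?_
  · simp only [uf, mul_zero, MII]
    norm_num
  · simp only [uf, MII, add_zero]
    exact mul_le_mul_of_nonneg_right h1 hi
  · simp only [uf, mul_one, MII, mul_zero, add_zero]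
    linarith
  · simp only [uf, mul_one, MII, mul_zero, add_zero]
    linarith
  · simp only [uf, add_zero, MII]
    have := mul_le_mul_of_nonneg_right h1 (sq_nonneg (ν.En z))
    linarith [sq_nonneg (ν.En z)]
  · simp only [uf, mul_zero, add_zero, MII]
    exact le_rfl
  · simp only [uf, mul_zero, add_zero, MII]
    have := mul_le_mul_of_nonneg_right h2 hF₁
    linarith
  · simp only [uf, mul_zero, add_zero, MII]
    have := mul_le_mul_of_nonneg_right h2 hF₂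
    linarith

/-! ## The margins of zone A against the costs of the near zones -/

theorem nn_MA {m : E → ℝ} {κ₀ : ℝ} (h0 : κ₀ ≤ 1) (hm : 0 ≤ m z) (hF₁ : 0 ≤ σ.F W z)
    (hF₂ : 0 ≤ τ.F W z) : Nn (MA σ τ W m κ₀) z :=
  ⟨by simp only [MA]; linarith, hm, hm, le_rfl, by simp only [MA]; positivity,
    by simp only [MA]; positivity, le_rfl, le_rfl⟩

/-- `cI` against zone A. -/
theorem cI_MA {m : E → ℝ} {κ₀ C q B : ℝ} {ν : Nu E} {Zq Zp : E → ℝ} (h0 : κ₀ ≤ 1)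
    (hm : 0 ≤ m z) (hF₁ : 0 ≤ σ.F W z) (hF₂ : 0 ≤ τ.F W z) (hq : 0 ≤ q) (hC : 0 ≤ C)
    (hE : 0 ≤ ν.En z) (hZq : Zq z ≤ B) (hZp : ν.En z * Zp z + Zq z ≤ ν.En z * B) (hB : 0 ≤ B)
    (h1 : 12 * (q * (C * (ν.En z * B))) ≤ m z * σ.F W z)
    (h2 : 12 * (q * (C * (ν.En z * B))) ≤ m z * τ.F W z) :
    q * (cI ν C Zq Zp).dens σ τ v₁ v₂ W a b z ≤ (MA σ τ W m κ₀).dens σ τ v₁ v₂ W a b z := by
  refine cI_pay (nn_MA h0 hm hF₁ hF₂) hq hC hE hZq hZp hB ?_ ?_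
  · simp only [MA]
    linarith
  · simp only [MA]
    linarith

/-- `e uf` against zone A. -/
theorem uf_MA {m : E → ℝ} {κ₀ e : ℝ} {ν : Nu E} (h0 : κ₀ ≤ 1) (hm : 0 ≤ m z)
    (hF₁ : 0 ≤ σ.F W z) (hF₂ : 0 ≤ τ.F W z) (he : 0 ≤ e) (hr : 0 ≤ ν.r2 z)
    (e1 : ν.F₁ z = σ.F W z) (e2 : ν.F₂ z = τ.F W z)
    (h1 : e + 2 * (e * (ν.r2 z)⁻¹) ≤ m z) (h2 : 6 * e ≤ m z)
    (w1 : 12 * (e * ν.En z ^ 2) ≤ m z * σ.F W z) (w2 : 12 * (e * ν.En z ^ 2) ≤ m z * τ.F W z) :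
    e * (uf ν).dens σ τ v₁ v₂ W a b z ≤ (MA σ τ W m κ₀).dens σ τ v₁ v₂ W a b z := by
  have j1 := mul_le_mul_of_nonneg_right h2 hF₁
  have j2 := mul_le_mul_of_nonneg_right h2 hF₂
  refine uf_pay (nn_MA h0 hm hF₁ hF₂) he hr h1 h1 ?_ ?_
  · simp only [MA, e1]
    linarith
  · simp only [MA, e2]
    linarith

/-- `cI` against region I. -/
theorem cI_MI {c C q B : ℝ} {ν : Nu E} {Zq Zp : E → ℝ} (hc : 0 ≤ c) (hq : 0 ≤ q) (hC : 0 ≤ C)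
    (hE : 0 ≤ ν.En z) (hF₁ : 0 ≤ ν.F₁ z) (hF₂ : 0 ≤ ν.F₂ z) (hm : 0 ≤ ν.m z)
    (hZq : Zq z ≤ B) (hZp : ν.En z * Zp z + Zq z ≤ ν.En z * B)
    (h1 : q * (C * (ν.En z * B)) ≤ c * ν.En z ^ 2) (h2 : q * (C * (ν.En z * B)) ≤ c * ν.wI z) :
    q * (cI ν C Zq Zp).dens σ τ v₁ v₂ W a b z ≤ (MI ν c).dens σ τ v₁ v₂ W a b z := by
  refine cI_pay' ⟨hc, hc, hc, mul_nonneg hc hE, mul_nonneg hc hF₁, mul_nonneg hc hF₂,
    mul_nonneg hc (sq_nonneg _), ?_⟩ hq hC hE hZq hZp h1 h2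
  simp only [MI, Nu.wI]
  positivity

/-- `cI` against zone II. -/
theorem cI_MII {C q B : ℝ} {ν : Nu E} {Zq Zp : E → ℝ} (hq : 0 ≤ q) (hC : 0 ≤ C)
    (hE : 0 ≤ ν.En z) (hF₁ : 0 ≤ ν.F₁ z) (hF₂ : 0 ≤ ν.F₂ z) (hr : 0 ≤ ν.r2 z) (hk : 0 ≤ ν.k z)
    (hZq : Zq z ≤ B) (hZp : ν.En z * Zp z + Zq z ≤ ν.En z * B) (hB : 0 ≤ B)
    (h1 : 16 * (q * (C * (ν.En z * B))) ≤ ν.k z * ν.F₁ z)
    (h2 : 16 * (q * (C * (ν.En z * B))) ≤ ν.k z * ν.F₂ z) :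
    q * (cI ν C Zq Zp).dens σ τ v₁ v₂ W a b z ≤ (MII ν).dens σ τ v₁ v₂ W a b z := by
  refine cI_pay ⟨by simp only [MII]; norm_num, by simp only [MII]; positivity,
      by simp only [MII]; positivity, by simp only [MII]; positivity,
      by simp only [MII]; positivity, by simp only [MII]; positivity, sq_nonneg _, le_rfl⟩
      hq hC hE hZq hZp hB ?_ ?_
  · simp only [MII]
    linarith
  · simp only [MII]
    linarith

end Vale.Agent.P088.R2.H338.E
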