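import Vale.Agent.P088.R2.H961.W.Sl

/-!
# P088, stage 3: summation of the zone inequalities

`T = ∑_α In(D_α)`; zone inequality `In(D_α) ≥ In(M_α) - In(c_α)`; the costs are absorbed by the
margins: `∑_α c_α ≤ (1/2) ∑_α M_α` pointwise.  Then `T ≥ (1/2) ∑_α In(M_α)`.
-/

open MeasureTheory Set Filter
open scoped ContDiff Topology

noncomputable section

namespace Vale.Agent.P088.R2.H338.E

open Vale.Agent.P088.R2.H961.GW

/-! ## Arithmetic -/

/-- Summation, numbers: column sums of the costs at most `q`. -/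
theorem sum_num {ι : Type*} [Fintype ι] {T q : ℝ} {D M : ι → ℝ} {c : ι → ι → ℝ}
    (hT : ∑ α, D α ≤ T) (hz : ∀ α, M α - ∑ β, c α β ≤ D α) (hc : ∀ β, ∑ α, c α β ≤ q * M β) :
    (1 - q) * ∑ α, M α ≤ T := by
  have h1 : ∑ α, (M α - ∑ β, c α β) ≤ ∑ α, D α := Finset.sum_le_sum fun α _ => hz α
  rw [Finset.sum_sub_distrib, Finset.sum_comm] at h1
  have h2 : ∑ β, ∑ α, c α β ≤ ∑ β, q * M β := Finset.sum_le_sum fun β _ => hc β
  rw [← Finset.mul_sum] at h2
  linarith

/-- The pointwise absorption: `c_{αβ} ≤ δ (M_α + M_β)` off the diagonal pattern. -/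
theorem abs_pt {ι : Type*} [Fintype ι] {M : ι → ℝ} {c : ι → ι → ℝ} {δ : ℝ}
    (hc : ∀ α β, c α β ≤ δ * (M α + M β)) :
    ∑ α, ∑ β, c α β ≤ 2 * δ * Fintype.card ι * ∑ α, M α := by
  have h1 : ∑ α, ∑ β, c α β ≤ ∑ α, ∑ β, δ * (M α + M β) :=
    Finset.sum_le_sum fun α _ => Finset.sum_le_sum fun β _ => hc α β
  refine h1.trans (le_of_eq ?_)
  simp only [mul_add, Finset.sum_add_distrib, ← Finset.mul_sum, Finset.sum_const,
    Finset.card_univ, nsmul_eq_mul]
  ring

/-! ## Integrals -/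

section general

variable {X : Type*} [MeasurableSpace X] {μ : Measure X} {ι : Type*} [Fintype ι]

/-- **Summation of zones**, general measure: `c_α` total cost of the zone `α`, absorbed by the sum of
the margins. -/
theorem sum_meas {T q : ℝ} {D : ι → ℝ} {M c : ι → X → ℝ} (hM : ∀ α, Integrable (M α) μ)
    (hc : ∀ α, Integrable (c α) μ) (hT : ∑ α, D α ≤ T)
    (hz : ∀ α, ∫ z, M α z ∂μ - ∫ z, c α z ∂μ ≤ D α)
    (hab : ∀ᵐ z ∂μ, ∑ α, c α z ≤ q * ∑ α, M α z) :
    (1 - q) * ∫ z, ∑ α, M α z ∂μ ≤ T := by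
  have h1 : ∑ α, (∫ z, M α z ∂μ - ∫ z, c α z ∂μ) ≤ ∑ α, D α := Finset.sum_le_sum fun α _ => hz α
  rw [Finset.sum_sub_distrib, ← integral_finsetSum _ fun α _ => hM α,
    ← integral_finsetSum _ fun α _ => hc α] at h1
  have h2 : ∫ z, ∑ α, c α z ∂μ ≤ ∫ z, q * ∑ α, M α z ∂μ :=
    integral_mono_ae (integrable_finsetSum _ fun α _ => hc α)
      ((integrable_finsetSum _ fun α _ => hM α).const_mul q) hab
  rw [integral_const_mul] at h2
  linarith

end general

section slot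

variable {E : Type*} [NormedAddCommGroup E] [NormedSpace ℝ E] [MeasureSpace E]
  [FiniteDimensional ℝ E] [BorelSpace E] [(volume : Measure E).IsAddHaarMeasure]
  {ι : Type*} [Fintype ι] {U : Set E} {θ : E → ℝ}

/-- **Summation of zones** in the vocabulary of the slots: densities `D_α`, margins `M_α` and total
costs `c_α`, all of them test functions. -/
theorem sum_In (hU : IsOpen U) (hθ : ∀ z ∈ U, 0 < θ z) (hs : Sm U θ) {T q : ℝ}
    {D M c : ι → E → ℝ} (tM : ∀ α, Te U (M α)) (tc : ∀ α, Te U (c α))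
    (hT : ∑ α, In U θ (D α) ≤ T) (hz : ∀ α, In U θ (M α) - In U θ (c α) ≤ In U θ (D α))
    (hab : ∀ z ∈ U, ∑ α, c α z ≤ q * ∑ α, M α z) :
    (1 - q) * In U θ (fun z => ∑ α, M α z) ≤ T := by
  have h1 : ∑ α, (In U θ (M α) - In U θ (c α)) ≤ ∑ α, In U θ (D α) :=
    Finset.sum_le_sum fun α _ => hz α
  rw [Finset.sum_sub_distrib, ← In_sum hU hs _ fun α _ => tM α,
    ← In_sum hU hs _ fun α _ => tc α] at h1
  have h2 : In U θ (fun z => ∑ α, c α z) ≤ In U θ (fun z => q * ∑ α, M α z) :=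
    In_mono hU hθ hs (Te.sum hU _ fun α _ => tc α) ((Te.sum hU _ fun α _ => tM α).cmul hU q) hab
  rw [In_cmul] at h2
  linarith

omit [NormedSpace ℝ E] [FiniteDimensional ℝ E] [(volume : Measure E).IsAddHaarMeasure] in
/-- The version with margins and costs which are only locally integrable against `θ`. -/
theorem sum_In' (hU : IsOpen U) (hθ : ∀ z ∈ U, 0 < θ z) {T q : ℝ} {D M c : ι → E → ℝ}
    (iM : ∀ α, IntegrableOn (fun z => θ z * M α z) U)
    (ic : ∀ α, IntegrableOn (fun z => θ z * c α z) U)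
    (hT : ∑ α, In U θ (D α) ≤ T) (hz : ∀ α, In U θ (M α) - In U θ (c α) ≤ In U θ (D α))
    (hab : ∀ z ∈ U, ∑ α, c α z ≤ q * ∑ α, M α z) :
    (1 - q) * In U θ (fun z => ∑ α, M α z) ≤ T := by
  have h := sum_meas (μ := volume.restrict U) (q := q) (M := fun α z => θ z * M α z)
    (c := fun α z => θ z * c α z) iM ic hT hz
    ((ae_restrict_iff' hU.measurableSet).2 (ae_of_all _ fun z hzU => by
      rw [← Finset.mul_sum, ← Finset.mul_sum]
      have := mul_le_mul_of_nonneg_left (hab z hzU) (hθ z hzU).le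
      linarith))
  have e : In U θ (fun z => ∑ α, M α z) = ∫ z in U, ∑ α, θ z * M α z := by
    unfold In
    simp only [Finset.mul_sum]
  rw [e]
  exact h

end slot

end Vale.Agent.P088.R2.H338.E
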