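import Vale.Agent.P088.R2.H205.C.Spec

/-!
# P088, stage 3, zone C: the derivatives of the flat weight `φ(x_e + y_e) + e^u Φ(|x - y|²)`
-/

open MeasureTheory Set
open scoped ContDiff

noncomputable section

namespace Vale.Agent.P088.R2.H338.EW

open Vale.Agent.P088.LR Vale.Agent.P088.HY
open Vale.Agent.P088.R2.H961.GW
open Vale.Agent.P088.R2.H644 Vale.Agent.P088.R2.H644.Ch
open Vale.Agent.P088.R2.H205.C

variable {n : ℕ}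

lemma contDiff_ht (e : Fin n) : ContDiff ℝ ∞ (ht e : VV n → ℝ) :=
  (contDiff_fst' e).add (contDiff_snd' e)

lemma hd_ht (v z : VV n) (e : Fin n) : HD v (ht e) (v.1 e + v.2 e) z :=
  (HD.fst v z e).add (HD.snd v z e)

lemma cd_of {φ φ₁ : ℝ → ℝ} (h : ContDiff ℝ ∞ φ) (d : ∀ s, HasDerivAt φ (φ₁ s) s) :
    ContDiff ℝ ∞ φ₁ := by
  have e1 : φ₁ = deriv φ := funext fun s => (d s).deriv.symm
  rw [e1]
  exact (contDiff_infty_iff_deriv.1 h).2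

lemma contDiff_Wu (e : Fin n) {φ Φ : ℝ → ℝ} (hφ : ContDiff ℝ ∞ φ) (hΦ : ContDiff ℝ ∞ Φ) :
    ContDiff ℝ ∞ (Wu e φ Φ : VV n → ℝ) :=
  (hφ.comp (contDiff_ht e)).add ((contDiff_Ee e 1).mul (contDiff_rad hΦ))

/-- Directional derivative of the weight. -/
lemma hd_Wu (v : VV n) (e : Fin n) {φ φ₁ Φ Φ₁ : ℝ → ℝ}
    (hφ : ∀ s, HasDerivAt φ (φ₁ s) s) (hΦ : ∀ s, HasDerivAt Φ (Φ₁ s) s) (z : VV n) :
    HD v (Wu e φ Φ) (φ₁ (ht e z) * (v.1 e + v.2 e) +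
      Ee e 1 z * ((v.1 e + v.2 e) * Φ (qq z) + Φ₁ (qq z) * dd v qq z)) z := by
  have h := (HD.comp (hφ _) (hd_ht v z e)).add ((HD.Ee v z e 1).mul (HD.rad (hΦ _)))
  refine ⟨h.d, h.e.trans ?_⟩
  ring

lemma dx_Wu (i e : Fin n) {φ φ₁ Φ Φ₁ : ℝ → ℝ}
    (hφ : ∀ s, HasDerivAt φ (φ₁ s) s) (hΦ : ∀ s, HasDerivAt Φ (Φ₁ s) s) (z : VV n) :
    dx i (Wu e φ Φ) z = (φ₁ (ht e z) + Ee e 1 z * Φ (qq z)) * de e i +
      2 * Ee e 1 z * Φ₁ (qq z) * qv i z := by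
  rw [dx_eq, (hd_Wu _ e hφ hΦ z).e, ← dx_eq, dx_qq]
  simp only [de, Pi.single_apply, Pi.zero_apply, eq_comm (a := e) (b := i)]
  split_ifs <;> ring

lemma dy_Wu (i e : Fin n) {φ φ₁ Φ Φ₁ : ℝ → ℝ}
    (hφ : ∀ s, HasDerivAt φ (φ₁ s) s) (hΦ : ∀ s, HasDerivAt Φ (Φ₁ s) s) (z : VV n) :
    dy i (Wu e φ Φ) z = (φ₁ (ht e z) + Ee e 1 z * Φ (qq z)) * de e i -
      2 * Ee e 1 z * Φ₁ (qq z) * qv i z := by
  rw [dy_eq, (hd_Wu _ e hφ hΦ z).e, ← dy_eq, dy_qq]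
  simp only [de, Pi.single_apply, Pi.zero_apply, eq_comm (a := e) (b := i)]
  split_ifs <;> ring

/-- Directional derivative of `∂_{x_i} W`. -/
lemma hd_dx_Wu (v : VV n) (i e : Fin n) {φ φ₁ φ₂ Φ Φ₁ Φ₂ : ℝ → ℝ}
    (h0 : ∀ s, HasDerivAt φ (φ₁ s) s) (h1 : ∀ s, HasDerivAt φ₁ (φ₂ s) s)
    (g0 : ∀ s, HasDerivAt Φ (Φ₁ s) s) (g1 : ∀ s, HasDerivAt Φ₁ (Φ₂ s) s) (z : VV n) :
    HD v (dx i (Wu e φ Φ)) (φ₂ (ht e z) * (v.1 e + v.2 e) * de e i +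
      Ee e 1 z * ((v.1 e + v.2 e) * (de e i * Φ (qq z) + 2 * Φ₁ (qq z) * qv i z) +
        (de e i * Φ₁ (qq z) + 2 * Φ₂ (qq z) * qv i z) * dd v qq z +
        2 * Φ₁ (qq z) * (v.1 i - v.2 i))) z := by
  have h : dx i (Wu e φ Φ) = fun z : VV n => φ₁ (ht e z) * de e i +
      Ee e 1 z * ((de e i) * Φ (qq z) + 2 * (Φ₁ (qq z) * qv i z)) := by
    funext z
    rw [dx_Wu i e h0 g0]
    ring
  have k := ((HD.comp (h1 _) (hd_ht v z e)).mulc (de e i)).add ((HD.Ee v z e 1).mul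
    (((HD.rad (g0 _)).cmul (de e i)).add (((HD.rad (g1 _)).mul (HD.qv v z i)).cmul 2)))
  rw [h]
  refine ⟨k.d, k.e.trans ?_⟩
  ring

/-- Directional derivative of `∂_{y_i} W`. -/
lemma hd_dy_Wu (v : VV n) (i e : Fin n) {φ φ₁ φ₂ Φ Φ₁ Φ₂ : ℝ → ℝ}
    (h0 : ∀ s, HasDerivAt φ (φ₁ s) s) (h1 : ∀ s, HasDerivAt φ₁ (φ₂ s) s)
    (g0 : ∀ s, HasDerivAt Φ (Φ₁ s) s) (g1 : ∀ s, HasDerivAt Φ₁ (Φ₂ s) s) (z : VV n) :
    HD v (dy i (Wu e φ Φ)) (φ₂ (ht e z) * (v.1 e + v.2 e) * de e i +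
      Ee e 1 z * ((v.1 e + v.2 e) * (de e i * Φ (qq z) - 2 * Φ₁ (qq z) * qv i z) +
        (de e i * Φ₁ (qq z) - 2 * Φ₂ (qq z) * qv i z) * dd v qq z -
        2 * Φ₁ (qq z) * (v.1 i - v.2 i))) z := by
  have h : dy i (Wu e φ Φ) = fun z : VV n => φ₁ (ht e z) * de e i +
      Ee e 1 z * ((de e i) * Φ (qq z) + (-2) * (Φ₁ (qq z) * qv i z)) := by
    funext z
    rw [dy_Wu i e h0 g0]
    ring
  have k := ((HD.comp (h1 _) (hd_ht v z e)).mulc (de e i)).add ((HD.Ee v z e 1).mul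
    (((HD.rad (g0 _)).cmul (de e i)).add (((HD.rad (g1 _)).mul (HD.qv v z i)).cmul (-2))))
  rw [h]
  refine ⟨k.d, k.e.trans ?_⟩
  ring

lemma sum_lin (e : Fin n) (z : VV n) (a b : ℝ) :
    ∑ i, (a * de e i + b * qv i z) ^ 2 = a ^ 2 + 2 * a * b * qv e z + b ^ 2 * qq z := by
  have h1 : ∀ i, (a * de e i + b * qv i z) ^ 2 =
      a ^ 2 * (1 * de e i) + 2 * a * b * (qv i z * de e i) + b ^ 2 * qv i z ^ 2 := by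
    intro i
    unfold de
    split_ifs <;> ring
  have h2 : ∑ i, (1 : ℝ) * de e i = 1 := sum_de e (fun _ => 1)
  have h3 : ∑ i, qv i z * de e i = qv e z := sum_de e (fun i => qv i z)
  simp only [h1, Finset.sum_add_distrib, ← Finset.mul_sum, h2, h3, ← qq_eq]
  ring

/-- The square of the length of the `x`-gradient. -/
lemma gx_Wu (e : Fin n) {φ φ₁ Φ Φ₁ : ℝ → ℝ}
    (hφ : ∀ s, HasDerivAt φ (φ₁ s) s) (hΦ : ∀ s, HasDerivAt Φ (Φ₁ s) s) (z : VV n) :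
    ∑ i, dx i (Wu e φ Φ) z ^ 2 = (φ₁ (ht e z) + Ee e 1 z * Φ (qq z)) ^ 2 +
      2 * (φ₁ (ht e z) + Ee e 1 z * Φ (qq z)) * (2 * Ee e 1 z * Φ₁ (qq z)) * qv e z +
      (2 * Ee e 1 z * Φ₁ (qq z)) ^ 2 * qq z := by
  rw [← sum_lin]
  exact Finset.sum_congr rfl fun i _ => by rw [dx_Wu i e hφ hΦ]

/-- The square of the length of the `y`-gradient. -/
lemma gy_Wu (e : Fin n) {φ φ₁ Φ Φ₁ : ℝ → ℝ}
    (hφ : ∀ s, HasDerivAt φ (φ₁ s) s) (hΦ : ∀ s, HasDerivAt Φ (Φ₁ s) s) (z : VV n) :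
    ∑ i, dy i (Wu e φ Φ) z ^ 2 = (φ₁ (ht e z) + Ee e 1 z * Φ (qq z)) ^ 2 +
      2 * (φ₁ (ht e z) + Ee e 1 z * Φ (qq z)) * (-(2 * Ee e 1 z * Φ₁ (qq z))) * qv e z +
      (-(2 * Ee e 1 z * Φ₁ (qq z))) ^ 2 * qq z := by
  rw [← sum_lin]
  exact Finset.sum_congr rfl fun i _ => by
    rw [dy_Wu i e hφ hΦ]
    ring

lemma sum_lap (e : Fin n) (z : VV n) (a b c d : ℝ) :
    ∑ i, (a * de e i + b * (qv i z * de e i) + c * qv i z ^ 2 + d) =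
      a + b * qv e z + c * qq z + n * d := by
  have h1 : ∀ i, a * de e i + b * (qv i z * de e i) + c * qv i z ^ 2 + d =
      a * (1 * de e i) + b * (qv i z * de e i) + c * qv i z ^ 2 + d := fun i => by ring
  have h2 : ∑ i, (1 : ℝ) * de e i = 1 := sum_de e (fun _ => 1)
  have h3 : ∑ i, qv i z * de e i = qv e z := sum_de e (fun i => qv i z)
  simp only [h1, Finset.sum_add_distrib, ← Finset.mul_sum, h2, h3, ← qq_eq, Finset.sum_const,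
    Finset.card_univ, Fintype.card_fin, nsmul_eq_mul, mul_one]

/-- `Δ_x W`. -/
lemma lx_Wu (e : Fin n) {φ φ₁ φ₂ Φ Φ₁ Φ₂ : ℝ → ℝ}
    (h0 : ∀ s, HasDerivAt φ (φ₁ s) s) (h1 : ∀ s, HasDerivAt φ₁ (φ₂ s) s)
    (g0 : ∀ s, HasDerivAt Φ (Φ₁ s) s) (g1 : ∀ s, HasDerivAt Φ₁ (Φ₂ s) s) (z : VV n) :
    ∑ i, dx i (dx i (Wu e φ Φ)) z = φ₂ (ht e z) + Ee e 1 z * (Φ (qq z) +
      4 * Φ₁ (qq z) * qv e z + 4 * Φ₂ (qq z) * qq z + 2 * n * Φ₁ (qq z)) := by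
  have h : ∀ i, dx i (dx i (Wu e φ Φ)) z = (φ₂ (ht e z) + Ee e 1 z * Φ (qq z)) * de e i +
      (Ee e 1 z * (4 * Φ₁ (qq z))) * (qv i z * de e i) +
      (Ee e 1 z * (4 * Φ₂ (qq z))) * qv i z ^ 2 + Ee e 1 z * (2 * Φ₁ (qq z)) := by
    intro i
    rw [dx_eq i (dx i _), (hd_dx_Wu _ i e h0 h1 g0 g1 z).e, ← dx_eq, dx_qq]
    simp only [de, Pi.single_apply, Pi.zero_apply, eq_comm (a := e) (b := i)]
    split_ifs <;> (simp; ring)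
  rw [Finset.sum_congr rfl fun i _ => h i, sum_lap]
  ring

/-- `Δ_y W`. -/
lemma ly_Wu (e : Fin n) {φ φ₁ φ₂ Φ Φ₁ Φ₂ : ℝ → ℝ}
    (h0 : ∀ s, HasDerivAt φ (φ₁ s) s) (h1 : ∀ s, HasDerivAt φ₁ (φ₂ s) s)
    (g0 : ∀ s, HasDerivAt Φ (Φ₁ s) s) (g1 : ∀ s, HasDerivAt Φ₁ (Φ₂ s) s) (z : VV n) :
    ∑ i, dy i (dy i (Wu e φ Φ)) z = φ₂ (ht e z) + Ee e 1 z * (Φ (qq z) -
      4 * Φ₁ (qq z) * qv e z + 4 * Φ₂ (qq z) * qq z + 2 * n * Φ₁ (qq z)) := by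
  have h : ∀ i, dy i (dy i (Wu e φ Φ)) z = (φ₂ (ht e z) + Ee e 1 z * Φ (qq z)) * de e i +
      (Ee e 1 z * (-4 * Φ₁ (qq z))) * (qv i z * de e i) +
      (Ee e 1 z * (4 * Φ₂ (qq z))) * qv i z ^ 2 + Ee e 1 z * (2 * Φ₁ (qq z)) := by
    intro i
    rw [dy_eq i (dy i _), (hd_dy_Wu _ i e h0 h1 g0 g1 z).e, ← dy_eq, dy_qq]
    simp only [de, Pi.single_apply, Pi.zero_apply, eq_comm (a := e) (b := i)]
    split_ifs <;> (simp; ring)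
  rw [Finset.sum_congr rfl fun i _ => h i, sum_lap]
  ring

end Vale.Agent.P088.R2.H338.EW
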